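import Crest.Agent.S0010Lib.Perfect

set_option autoImplicit false
set_option linter.unusedSectionVars false
set_option linter.style.haveILetI false
set_option linter.unusedVariables false

open Polynomial IntermediateField Crest.NumberTheoryR.MilnorK

namespace Crest.Agent.S0010Lib

/-- The main statement, all assembled. -/
theorem main {p : ℕ} [hp : Fact p.Prime]
    {K L : Type*} [Field K] [Field L] [CharP K p] [CharP L p] (k : Subfield K) (l : Subfield L)
    [IsAlgClosed k] [IsAlgClosed l]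
    (hK : ∃ s : Finset K, Subfield.closure ((k : Set K) ∪ (s : Set K)) = ⊤)
    (hL : ∃ s : Finset L, Subfield.closure ((l : Set L) ∪ (s : Set L)) = ⊤)
    (hK2 : 2 ≤ Algebra.trdeg k K)
    (Θ : KOne K p ≃ₗ[ZMod p] KOne L p) (hΘ : IsCompatible Θ) :
    ∃! α : K ≃+* L, k.map α.toRingHom = l ∧
      ∃ c : ZMod p, c ≠ 0 ∧
        ∀ u : Kˣ, Θ (cls K p u) = c • cls L p (Units.map α.toRingHom.toMonoidHom u) := by
  have hrank := exists_rank (p := p) k hK hK2
  have hΘ' : PerpPres Θ := perpPres_of_stp (stp_of_compat hΘ) (stp_symm_of_compat hΘ)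
  obtain ⟨α, c, hc, hα⟩ := exists_ringEquiv_of_perpPres hΘ' hrank
  refine ⟨α, ⟨?_, c, hc, ?_⟩, ?_⟩
  · apply le_antisymm
    · rintro _ ⟨x, hx, rfl⟩
      apply mem_of_forall_pow (p := p) l hL
      intro m
      obtain ⟨y, hy⟩ := IsAlgClosed.exists_pow_nat_eq (⟨x, hx⟩ : k)
        (pow_pos hp.out.pos m)
      refine ⟨α y, ?_⟩
      have hy' : (y : K) ^ p ^ m = x := congrArg Subtype.val hy
      rw [← map_pow, hy']
      rfl
    · intro y hy
      have hmem : α.symm y ∈ k := by
        apply mem_of_forall_pow (p := p) k hK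
        intro m
        obtain ⟨z, hz⟩ := IsAlgClosed.exists_pow_nat_eq (⟨y, hy⟩ : l)
          (pow_pos hp.out.pos m)
        refine ⟨α.symm z, ?_⟩
        have hz' : (z : L) ^ p ^ m = y := congrArg Subtype.val hz
        rw [← map_pow, hz']
      exact ⟨_, hmem, by simp⟩
  · intro u
    rw [cls_eq, cls_eq, hα u u.ne_zero]
    rfl
  · rintro β ⟨-, d, hd, hβ⟩
    apply ringEquiv_unique hrank hd hc
    intro u hu
    have h1 := hβ (Units.mk0 u hu)
    have h2 := hα u hu
    rw [cls_eq, cls_eq] at h1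
    exact h1.symm.trans h2

end Crest.Agent.S0010Lib
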