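import Crest.Agent.S0010Lib.Spread

set_option autoImplicit false
set_option linter.unusedSectionVars false
set_option linter.style.haveILetI false
set_option linter.unusedVariables false

open Polynomial IntermediateField Crest.NumberTheoryR.MilnorK
open scoped TensorProduct

namespace Crest.Agent.S0010Lib

section Assemble

variable {K L : Type*} [Field K] [Field L] {p : ℕ} [hp : Fact p.Prime] [hK : CharP K p]
  [hL : CharP L p]

variable {Θ : KOne K p ≃ₗ[ZMod p] KOne L p}

lemma perp_smul_smul {F : Type*} [Field F] [CharP F p] {a b : KOne F p} (h : Perp a b)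
    (c d : ZMod p) : Perp (c • a) (d • b) := (h.smul_left c).smul_right d

lemma natCast_zmod_ne_zero {e : ℕ} (h0 : 0 < e) (h1 : e < p) : (e : ZMod p) ≠ 0 := by
  rw [Ne, ZMod.natCast_eq_zero_iff]
  exact Nat.not_dvd_of_pos_of_lt h0 h1

/-- Scaling by a nonzero constant. -/
noncomputable def scaleEquiv (Θ : KOne K p ≃ₗ[ZMod p] KOne L p) {c : ZMod p} (hc : c ≠ 0) :
    KOne K p ≃ₗ[ZMod p] KOne L p :=
  Θ.trans (LinearEquiv.smulOfNeZero (ZMod p) (KOne L p) c hc)

lemma scaleEquiv_apply {c : ZMod p} (hc : c ≠ 0) (a : KOne K p) :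
    scaleEquiv Θ hc a = c • Θ a := rfl

lemma perpPres_scale (hΘ : PerpPres Θ) {c : ZMod p} (hc : c ≠ 0) : PerpPres (scaleEquiv Θ hc) := by
  intro a b
  rw [scaleEquiv_apply, scaleEquiv_apply]
  constructor
  · intro h
    exact perp_smul_smul ((hΘ a b).1 h) c c
  · intro h
    apply (hΘ a b).2
    have := perp_smul_smul h c⁻¹ c⁻¹
    simp only [smul_smul, inv_mul_cancel₀ hc, one_smul] at this
    exact this

lemma zmod_natCast_smul (e : ℕ) (a : KOne L p) : (e : ZMod p) • a = e • a :=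
  Nat.cast_smul_eq_nsmul _ _ _

/-- The core of the main theorem: existence of the field isomorphism. -/
theorem exists_ringEquiv_of_perpPres (hΘ : PerpPres Θ)
    (hrank : ∃ x y : K, x ≠ 0 ∧ y ≠ 0 ∧ ¬ Perp (cl p x) (cl p y)) :
    ∃ (α : K ≃+* L) (c : ZMod p), c ≠ 0 ∧ ∀ u : K, u ≠ 0 → Θ (cl p u) = c • cl p (α u) := by
  obtain ⟨e, he0, hep, hline⟩ := exists_lineProp hΘ hrank
  have hec : (e : ZMod p) ≠ 0 := natCast_zmod_ne_zero he0 hep
  set Ψ := scaleEquiv Θ hec with hΨdef
  have hΨap : ∀ a, Ψ a = e • Θ a := fun a => by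
    rw [hΨdef, scaleEquiv_apply, zmod_natCast_smul]
  have hΨline : LineProp (fun a => Ψ a) := by
    have : (fun a => Ψ a) = fun a => e • Θ a := funext hΨap
    rw [this]
    exact hline
  have hΨpres : PerpPres Ψ := perpPres_scale hΘ hec
  -- rank of `L`
  have hrankL : ∃ x y : L, x ≠ 0 ∧ y ≠ 0 ∧ ¬ Perp (cl p x) (cl p y) := by
    obtain ⟨x, y, hx, hy, hxy⟩ := hrank
    obtain ⟨X, hX0, hX⟩ := exists_cl (Θ (cl p x))
    obtain ⟨Y, hY0, hY⟩ := exists_cl (Θ (cl p y))
    refine ⟨X, Y, hX0, hY0, ?_⟩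
    rw [hX, hY, ← hΘ]
    exact hxy
  -- the exponent of the inverse
  obtain ⟨f, hf0, hfp, hline'⟩ := exists_lineProp hΨpres.symm hrankL
  have hf1 : f = 1 := by
    obtain ⟨x', y', hx', hy', hxy'⟩ := hrankL
    have hb : x' ∉ PP L p := not_PP_of_not_perp_left hx' hxy'
    have hfc : (f : ZMod p) ≠ 0 := natCast_zmod_ne_zero hf0 hfp
    obtain ⟨c, hc0, hc⟩ := exists_cl (f • Ψ.symm (cl p x'))
    have hcE : c ∉ PP K p := by
      intro h
      have h1 := (cl_eq_zero_iff hc0).2 h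
      rw [hc, ← zmod_natCast_smul, smul_eq_zero] at h1
      rcases h1 with h1 | h1
      · exact hfc h1
      · have h2 : cl p x' = 0 := by
          have := congrArg Ψ h1
          rwa [Ψ.apply_symm_apply, map_zero] at this
        exact hb ((cl_eq_zero_iff hx').1 h2)
    obtain ⟨t₀, ht₀, ht₀0, hn, hfm⟩ := hline' x' hb 1 (one_mem _) one_ne_zero c hc0 hc
    have hfm' : f • Ψ.symm (cl p (x' + 1)) = cl p (c + t₀) := hfm
    have hcl : cl p (x' ^ f) = Ψ (cl p c) := by
      rw [hc, cl_pow hx', map_nsmul, Ψ.apply_symm_apply]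
    obtain ⟨t₁, ht₁, ht₁0, hn₁, hfm₁⟩ :=
      hΨline c hcE t₀ ht₀ ht₀0 (x' ^ f) (pow_ne_zero _ hx') hcl
    have hfm₁' : Ψ (cl p (c + t₀)) = cl p (x' ^ f + t₁) := hfm₁
    rw [← hfm', map_nsmul, Ψ.apply_symm_apply] at hfm₁'
    have hx1 : x' + 1 ≠ 0 := add_PP_ne_zero hb (one_mem _)
    have h1p : 1 < p := hp.out.one_lt
    refine exp_a_unique hx' hx1 hb hf0 hfp Nat.one_pos h1p ht₁ ht₁0 (one_mem _) one_ne_zero hn₁ ?_ hfm₁' ?_
    · rw [pow_one]; exact hx1
    · rw [pow_one, one_smul]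
  have hline'' : LineProp (fun a => Ψ.symm a) := by
    subst hf1
    simpa using hline'
  obtain ⟨α, hα⟩ := exists_ringEquiv hΨline hline'' hrank
  refine ⟨α, (e : ZMod p)⁻¹, inv_ne_zero hec, fun u hu => ?_⟩
  rw [← hα u hu, hΨdef, scaleEquiv_apply, smul_smul, inv_mul_cancel₀ hec, one_smul]

/-- Uniqueness of the field isomorphism. -/
theorem ringEquiv_unique (hrank : ∃ x y : K, x ≠ 0 ∧ y ≠ 0 ∧ ¬ Perp (cl p x) (cl p y))
    {α β : K ≃+* L} {c d : ZMod p} (hc : c ≠ 0) (hd : d ≠ 0)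
    (h : ∀ u : K, u ≠ 0 → c • cl p (α u) = d • cl p (β u)) : α = β := by
  obtain ⟨x₀, y₀, hx₀, hy₀, hxy₀⟩ := hrank
  have hx₀E : x₀ ∉ PP K p := not_PP_of_not_perp_left hx₀ hxy₀
  -- first `α` and `β` agree outside the `p`-th powers
  have key : ∀ u : K, u ∉ PP K p → α u = β u := by
    intro u hu
    have hu0 : u ≠ 0 := fun h => hu (by rw [h]; exact zero_mem _)
    have hu1 : u + 1 ≠ 0 := add_PP_ne_zero hu (one_mem _)
    have hX0 : α u ≠ 0 := by simpa using hu0
    have hY0 : β u ≠ 0 := by simpa using hu0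
    have hX1 : α u + 1 ≠ 0 := by
      have := (map_ne_zero α).2 hu1
      rwa [map_add, map_one] at this
    have hY1 : β u + 1 ≠ 0 := by
      have := (map_ne_zero β).2 hu1
      rwa [map_add, map_one] at this
    have hXE : α u ∉ PP L p := by
      intro h'
      obtain ⟨y, hy⟩ := mem_PP.1 h'
      apply hu
      refine mem_PP.2 ⟨α.symm y, ?_⟩
      apply α.injective
      simp [hy]
    obtain ⟨D, hD⟩ := exists_der_self_of_not_PP hXE
    have e1 := congrArg (dl D) (h u hu0)
    have e2 := congrArg (dl D) (h (u + 1) hu1)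
    rw [map_add, map_add, map_one, map_one] at e2
    have hdl : ∀ (r : ZMod p) (a : KOne L p), dl D (r • a) = r.val • dl D a := by
      intro r a
      rw [zmod_smul_eq, map_nsmul]
    rw [hdl, hdl, dl_cl D hX0, dl_cl D hY0, hD, div_self hX0, nsmul_eq_mul, nsmul_eq_mul, mul_one] at e1
    rw [hdl, hdl, dl_cl D hX1, dl_cl D hY1, map_add, map_add, hD, Derivation.map_one_eq_zero,
      add_zero, add_zero, nsmul_eq_mul, nsmul_eq_mul] at e2
    -- the constant `c.val`
    have hcv : (c.val : L) ≠ 0 := by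
      rw [Ne, natCast_eq_zero_iff]
      have h1 : c.val < p := ZMod.val_lt c
      have h2 : 0 < c.val := Nat.pos_of_ne_zero (by simpa [ZMod.val_eq_zero] using hc)
      exact Nat.not_dvd_of_pos_of_lt h2 h1
    have hdv : (d.val : L) ≠ 0 := by
      rw [Ne, natCast_eq_zero_iff]
      have h1 : d.val < p := ZMod.val_lt d
      have h2 : 0 < d.val := Nat.pos_of_ne_zero (by simpa [ZMod.val_eq_zero] using hd)
      exact Nat.not_dvd_of_pos_of_lt h2 h1
    have hDY0 : D (β u) ≠ 0 := by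
      intro h0
      rw [h0, zero_div, mul_zero] at e1
      exact hcv e1
    have hDY : D (β u) = (c.val : L) * β u / d.val := by
      field_simp at e1 ⊢
      linear_combination -e1
    -- combine
    rw [hDY] at e2
    field_simp at e2
    apply sub_eq_zero.1
    linear_combination e2
  apply RingEquiv.ext
  intro u
  by_cases hu : u ∈ PP K p
  · have h1 : x₀ + u ∉ PP K p := add_PP_not_PP hx₀E hu
    have h2 := key _ h1
    rw [map_add, map_add, key x₀ hx₀E] at h2
    exact add_left_cancel h2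
  · exact key u hu

end Assemble

end Crest.Agent.S0010Lib
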