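import Mathlib

set_option autoImplicit false
set_option linter.unusedSectionVars false
set_option linter.style.haveILetI false

open Polynomial IntermediateField

namespace Crest.Agent.S0010Lib

section Basic

variable (F : Type*) [Field F] (p : ℕ) [hp : Fact p.Prime] [hc : CharP F p]

/-- The subfield of `p`-th powers. -/
noncomputable def PP : Subfield F :=
  letI : ExpChar F p := ExpChar.prime hp.out
  (frobenius F p).fieldRange

/-- Derivations of `F` (automatically linear over the `p`-th powers). -/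
abbrev Der : Type _ := Derivation (PP F p) F F

variable {F p}

lemma algebraMap_PP (c : PP F p) : algebraMap (PP F p) F c = (c : F) := rfl

lemma mem_PP {x : F} : x ∈ PP F p ↔ ∃ y, y ^ p = x := by
  letI : ExpChar F p := ExpChar.prime hp.out
  simp only [PP, RingHom.mem_fieldRange, frobenius_def]

lemma pow_mem_PP (x : F) : x ^ p ∈ PP F p := mem_PP.2 ⟨x, rfl⟩

lemma der_PP (D : Der F p) {c : F} (h : c ∈ PP F p) : D c = 0 :=
  D.map_algebraMap (⟨c, h⟩ : PP F p)

lemma der_pow_p (D : Der F p) (x : F) : D (x ^ p) = 0 := der_PP D (pow_mem_PP x)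

lemma natCast_mem_PP (n : ℕ) : (n : F) ∈ PP F p := natCast_mem _ n

lemma natCast_eq_zero_iff (n : ℕ) : (n : F) = 0 ↔ p ∣ n := CharP.cast_eq_zero_iff F p n

lemma natCast_ne_zero_of_lt {n : ℕ} (h0 : 0 < n) (h1 : n < p) : (n : F) ≠ 0 := by
  rw [Ne, natCast_eq_zero_iff]
  exact Nat.not_dvd_of_pos_of_lt h0 h1

lemma isIntegral_PP (x : F) : IsIntegral (PP F p) x := by
  refine ⟨X ^ p - C (⟨x ^ p, pow_mem_PP x⟩ : PP F p),
    monic_X_pow_sub_C _ hp.out.ne_zero, ?_⟩
  simp [eval₂_sub, eval₂_pow, eval₂_X, eval₂_C, algebraMap_PP]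

lemma mem_adjoin_of_integral {N : Type*} [Field N] [Algebra N F] {r : F} (h : IsIntegral N r)
    {u : F} : u ∈ N⟮r⟯ ↔ ∃ P : N[X], aeval r P = u := by
  rw [← IntermediateField.mem_toSubalgebra,
    adjoin_simple_toSubalgebra_of_isAlgebraic h.isAlgebraic,
    Algebra.adjoin_singleton_eq_range_aeval]
  simp

/-- `E(r)`: the intermediate field generated by `r` over the `p`-th powers. -/
noncomputable abbrev Ea (r : F) : IntermediateField (PP F p) F := (PP F p)⟮r⟯

lemma mem_Ea {r u : F} : u ∈ Ea (p := p) r ↔ ∃ P : (PP F p)[X], aeval r P = u :=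
  mem_adjoin_of_integral (isIntegral_PP r)

lemma self_mem_Ea (r : F) : r ∈ Ea (p := p) r := mem_adjoin_simple_self _ r

lemma PP_mem_Ea (r : F) {c : F} (h : c ∈ PP F p) : c ∈ Ea (p := p) r :=
  (Ea (p := p) r).algebraMap_mem (⟨c, h⟩ : PP F p)

/-- Chain rule. -/
lemma der_aeval (D : Der F p) (r : F) (P : (PP F p)[X]) :
    D (aeval r P) = aeval r (derivative P) * D r := by
  rw [Derivation.map_aeval, smul_eq_mul]

lemma der_eq_zero_of_mem_Ea (D : Der F p) {r u : F} (h : D r = 0) (hu : u ∈ Ea (p := p) r) :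
    D u = 0 := by
  obtain ⟨P, rfl⟩ := mem_Ea.1 hu
  rw [der_aeval, h, mul_zero]

lemma der_mem_Ea (D : Der F p) {r u : F} (h : D r ∈ Ea (p := p) r) (hu : u ∈ Ea (p := p) r) :
    D u ∈ Ea (p := p) r := by
  obtain ⟨P, rfl⟩ := mem_Ea.1 hu
  rw [der_aeval]
  exact mul_mem (mem_Ea.2 ⟨_, rfl⟩) h

lemma aeval_mem_Ea (r : F) (P : (PP F p)[X]) : aeval r P ∈ Ea (p := p) r := mem_Ea.2 ⟨P, rfl⟩

end Basic

section Minpoly

variable {F : Type*} [Field F] {p : ℕ} [hp : Fact p.Prime] [hc : CharP F p]

/-- Over any subfield containing the `p`-th powers, an element outside has minimal polynomial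
`X^p - r^p`. -/
lemma minpoly_eq {N : Type*} [Field N] [Algebra N F] {r : F} (hr : r ∉ (algebraMap N F).range)
    (c : N) (hc' : algebraMap N F c = r ^ p) :
    minpoly N r = X ^ p - C c := by
  symm
  apply minpoly.eq_of_irreducible_of_monic
  · apply X_pow_sub_C_irreducible_of_prime hp.out
    intro b hb
    apply hr
    refine ⟨b, ?_⟩
    have h2 : (algebraMap N F b) ^ p = r ^ p := by rw [← map_pow, hb, hc']
    have : ExpChar F p := ExpChar.prime hp.out
    exact (frobenius_inj F p) (by simpa [frobenius_def] using h2)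
  · simp [hc']
  · exact monic_X_pow_sub_C _ hp.out.ne_zero

lemma natDegree_minpoly_eq {N : Type*} [Field N] [Algebra N F] {r : F}
    (hr : r ∉ (algebraMap N F).range) (c : N) (hc' : algebraMap N F c = r ^ p) :
    (minpoly N r).natDegree = p := by
  rw [minpoly_eq hr c hc']
  exact natDegree_X_pow_sub_C

lemma isIntegral_of_pow_mem {N : Type*} [Field N] [Algebra N F] {r : F}
    (c : N) (hc' : algebraMap N F c = r ^ p) : IsIntegral N r := by
  refine ⟨X ^ p - C c, monic_X_pow_sub_C _ hp.out.ne_zero, ?_⟩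
  simp [eval₂_sub, eval₂_pow, eval₂_X, eval₂_C, hc']

/-- A polynomial of degree `< p` over `N` vanishing at `r ∉ N` is zero. -/
lemma eq_zero_of_aeval_eq_zero {N : Type*} [Field N] [Algebra N F] {r : F}
    (hr : r ∉ (algebraMap N F).range) (c : N) (hc' : algebraMap N F c = r ^ p)
    {Q : N[X]} (hd : Q.natDegree < p) (h0 : aeval r Q = 0) : Q = 0 := by
  by_contra hne
  have hint : IsIntegral N r := isIntegral_of_pow_mem c hc'
  have := Polynomial.natDegree_le_of_dvd (minpoly.dvd N r h0) hne
  rw [natDegree_minpoly_eq hr c hc'] at this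
  omega

lemma not_mem_range_PP {r : F} (hr : r ∉ PP F p) : r ∉ (algebraMap (PP F p) F).range := by
  rintro ⟨c, rfl⟩
  exact hr c.2

/-- Reduction modulo `X^p - r^p`: every element of `E(r)` has a representative of degree `< p`. -/
lemma exists_poly_lt {r u : F} (hu : u ∈ Ea (p := p) r) :
    ∃ P : (PP F p)[X], P.natDegree < p ∧ aeval r P = u := by
  obtain ⟨P, rfl⟩ := mem_Ea.1 hu
  set c : PP F p := ⟨r ^ p, pow_mem_PP r⟩ with hcdef
  have hm : (X ^ p - C c : (PP F p)[X]).Monic := monic_X_pow_sub_C _ hp.out.ne_zero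
  have hdeg : (X ^ p - C c : (PP F p)[X]).natDegree = p := natDegree_X_pow_sub_C
  have hev : aeval r (X ^ p - C c : (PP F p)[X]) = 0 := by
    simp [hcdef, algebraMap_PP]
  refine ⟨P %ₘ (X ^ p - C c), ?_, ?_⟩
  · have hne : (X ^ p - C c : (PP F p)[X]) ≠ 1 := by
      intro h
      rw [h] at hdeg
      simp only [natDegree_one] at hdeg
      exact hp.out.ne_zero hdeg.symm
    have := natDegree_modByMonic_lt P hm hne
    rwa [hdeg] at this
  · conv_rhs => rw [← modByMonic_add_div P (X ^ p - C c)]
    rw [map_add, map_mul, hev, zero_mul, add_zero]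

lemma coe_coeff_eq_zero {N : Type*} [Field N] [Algebra N F] {P : N[X]} {n : ℕ} {a : ℕ}
    (ha : (a : F) ≠ 0) (h : (a : N) * P.coeff n = 0) : P.coeff n = 0 := by
  rcases mul_eq_zero.1 h with h | h
  · exfalso
    apply ha
    have := congrArg (algebraMap N F) h
    simpa using this
  · exact h

/-- `u ∈ E(r)` with `D r ≠ 0`, `D u = 0` forces `u ∈ E`. -/
lemma mem_PP_of_der_eq_zero (D : Der F p) {r u : F} (hr : D r ≠ 0) (hu : u ∈ Ea (p := p) r)
    (hD : D u = 0) : u ∈ PP F p := by
  have hrE : r ∉ PP F p := fun h => hr (der_PP D h)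
  obtain ⟨P, hP, rfl⟩ := exists_poly_lt hu
  rw [der_aeval, mul_eq_zero, or_iff_left hr] at hD
  set c : PP F p := ⟨r ^ p, pow_mem_PP r⟩ with hcdef
  have hdP : derivative P = 0 := by
    apply eq_zero_of_aeval_eq_zero (not_mem_range_PP hrE) c rfl _ hD
    exact lt_of_le_of_lt (natDegree_derivative_le P) (by omega)
  -- degree < p and derivative zero implies constant
  have hconst : P = C (P.coeff 0) := by
    refine Polynomial.ext fun n => ?_
    rw [coeff_C]
    split_ifs with hn
    · rw [hn]
    · by_cases hlt : n ≤ P.natDegree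
      · have hcoeff := congrArg (fun Q => Q.coeff (n - 1)) hdP
        simp only [coeff_derivative, coeff_zero] at hcoeff
        have hn1 : n - 1 + 1 = n := by omega
        rw [hn1] at hcoeff
        rw [mul_comm] at hcoeff
        have hh : ((n - 1 : ℕ) + 1 : PP F p) = ((n : ℕ) : PP F p) := by
          conv_rhs => rw [← hn1]
          push_cast
          rfl
        rw [hh] at hcoeff
        have hnF : ((n : ℕ) : F) ≠ 0 := natCast_ne_zero_of_lt (by omega) (by omega)
        exact_mod_cast coe_coeff_eq_zero hnF hcoeff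
      · exact coeff_eq_zero_of_natDegree_lt (by omega)
  rw [hconst, aeval_C]
  exact (P.coeff 0).2

/-- Eigenvectors of `D` on `E(w)` when `D w = w`. -/
lemma eigen {D : Der F p} {w φ m : F} (hw : D w = w) (hw0 : w ≠ 0)
    (hφ : φ ∈ Ea (p := p) w) (hφ0 : φ ≠ 0) (hm : m ∈ PP F p) (h : D φ = m * φ) :
    ∃ j : ℕ, j < p ∧ m = (j : F) ∧ ∃ c : F, c ∈ PP F p ∧ c ≠ 0 ∧ φ = c * w ^ j := by
  have hwE : w ∉ PP F p := fun h' => hw0 ((der_PP D h').symm.trans hw |>.symm)
  obtain ⟨P, hP, rfl⟩ := exists_poly_lt hφ
  set c : PP F p := ⟨w ^ p, pow_mem_PP w⟩ with hcdef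
  set M : PP F p := ⟨m, hm⟩ with hMdef
  set Q : (PP F p)[X] := X * derivative P - C M * P with hQdef
  have hQ0 : Q = 0 := by
    apply eq_zero_of_aeval_eq_zero (not_mem_range_PP hwE) c rfl
    · refine lt_of_le_of_lt (natDegree_sub_le _ _) (max_lt ?_ ?_)
      · by_cases hd : derivative P = 0
        · rw [hd]
          simp only [mul_zero, natDegree_zero]
          exact hp.out.pos
        · rw [natDegree_X_mul hd]
          have hdl : (derivative P).natDegree < P.natDegree :=
            natDegree_derivative_lt (by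
              intro h0
              have : P = C (P.coeff 0) := eq_C_of_natDegree_eq_zero h0
              rw [this, derivative_C] at hd
              exact hd rfl)
          omega
      · exact lt_of_le_of_lt (natDegree_C_mul_le _ _) hP
    · rw [hQdef, map_sub, map_mul, map_mul, aeval_X, aeval_C]
      have h2 := h
      rw [der_aeval, hw] at h2
      have hM : algebraMap (PP F p) F M = m := rfl
      rw [hM, mul_comm w, h2, sub_self]
  have hcoef : ∀ n : ℕ, ((n : PP F p) - M) * P.coeff n = 0 := by
    intro n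
    have := congrArg (fun R => R.coeff n) hQ0
    simp only [hQdef, coeff_sub, coeff_zero, coeff_C_mul] at this
    have h3 : (X * derivative P).coeff n = (n : PP F p) * P.coeff n := by
      cases n with
      | zero => simp
      | succ k =>
        rw [coeff_X_mul, coeff_derivative]
        push_cast
        ring
    rw [h3] at this
    rw [sub_mul]
    exact this
  have hP0 : P ≠ 0 := by
    rintro rfl
    exact hφ0 (by simp)
  -- choose a nonzero coefficient
  obtain ⟨j, hj⟩ : ∃ j, P.coeff j ≠ 0 := by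
    by_contra hcon
    push Not at hcon
    exact hP0 (Polynomial.ext (by simpa using hcon))
  have hjlt : j < p := by
    have := le_natDegree_of_ne_zero hj
    omega
  have hMj : M = (j : PP F p) := by
    have := hcoef j
    rcases mul_eq_zero.1 this with h4 | h4
    · exact (sub_eq_zero.1 h4).symm
    · exact absurd h4 hj
  refine ⟨j, hjlt, ?_, (P.coeff j : F), (P.coeff j).2, ?_, ?_⟩
  · have := congrArg (algebraMap (PP F p) F) hMj
    rw [map_natCast] at this
    exact this
  · intro h5
    exact hj (Subtype.ext h5)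
  · -- all other coefficients vanish
    have hPeq : P = monomial j (P.coeff j) := by
      refine Polynomial.ext fun n => ?_
      rw [coeff_monomial]
      split_ifs with hn
      · rw [hn]
      · by_cases hlt : n < p
        · have h6 := hcoef n
          rw [hMj] at h6
          rcases mul_eq_zero.1 h6 with h7 | h7
          · exfalso
            have h8 : ((n : ℕ) : F) = (j : F) := by
              have := congrArg (algebraMap (PP F p) F) h7
              simpa [sub_eq_zero] using this
            have h9 := (CharP.natCast_eq_natCast F p).1 h8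
            have : n = j := Nat.ModEq.eq_of_lt_of_lt h9 hlt hjlt
            exact hn this.symm
          · exact h7
        · exact coeff_eq_zero_of_natDegree_lt (by omega)
    conv_lhs => rw [hPeq]
    rw [aeval_monomial, algebraMap_PP]

end Minpoly

section ExistsDer

variable {F : Type*} [Field F] {p : ℕ} [hp : Fact p.Prime] [hc : CharP F p]

/-- A maximal intermediate field avoiding `f`. -/
lemma exists_maximal_avoiding (M : IntermediateField (PP F p) F) {f : F} (hf : f ∉ M) :
    ∃ N : IntermediateField (PP F p) F, M ≤ N ∧ f ∉ N ∧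
      ∀ N' : IntermediateField (PP F p) F, N ≤ N' → f ∉ N' → N' = N := by
  have hzorn := zorn_le_nonempty₀ {N : IntermediateField (PP F p) F | f ∉ N} ?_ M hf
  · obtain ⟨N, hMN, hN⟩ := hzorn
    refine ⟨N, hMN, hN.prop, fun N' hle hf' => ?_⟩
    exact le_antisymm (hN.le_of_ge hf' hle) hle
  · intro c hc' hchain y hy
    haveI : Nonempty c := ⟨⟨y, hy⟩⟩
    refine ⟨⨆ i : c, (i : IntermediateField (PP F p) F), ?_, fun z hz => ?_⟩
    · have hdir : Directed (· ≤ ·) (fun i : c => (i : IntermediateField (PP F p) F)) :=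
        hchain.directed
      change f ∉ _
      rw [← SetLike.mem_coe, IntermediateField.coe_iSup_of_directed hdir]
      simp only [Set.mem_iUnion, not_exists]
      intro i
      exact hc' i.2
    · exact le_iSup (fun i : c => (i : IntermediateField (PP F p) F)) ⟨z, hz⟩

theorem exists_der (M : IntermediateField (PP F p) F) {f : F} (hf : f ∉ M) :
    ∃ D : Der F p, (∀ m ∈ M, D m = 0) ∧ D f = 1 := by
  obtain ⟨N, hMN, hfN, hmax⟩ := exists_maximal_avoiding M hf
  -- the element `f` is not in `N`
  have hfN' : f ∉ (algebraMap N F).range := by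
    rintro ⟨c, rfl⟩
    exact hfN c.2
  have hpow : ∀ x : F, x ^ p ∈ N := fun x => N.algebraMap_mem ⟨x ^ p, pow_mem_PP x⟩
  have hint : ∀ x : F, IsIntegral N x := fun x =>
    isIntegral_of_pow_mem (⟨x ^ p, hpow x⟩ : N) rfl
  -- every element lies in `N⟮f⟯`
  have htop : ∀ x : F, x ∈ N⟮f⟯ := by
    intro x
    by_cases hxN : x ∈ N
    · exact (N⟮f⟯).algebraMap_mem ⟨x, hxN⟩
    have hxN' : x ∉ (algebraMap N F).range := by
      rintro ⟨c, rfl⟩
      exact hxN c.2
    -- f ∈ N⟮x⟯ by maximality
    have hfx : f ∈ N⟮x⟯ := by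
      by_contra hcon
      have hrs : ((N⟮x⟯).restrictScalars (PP F p)) = N := by
        apply hmax
        · intro y hy
          exact (N⟮x⟯).algebraMap_mem ⟨y, hy⟩
        · exact hcon
      apply hxN
      rw [← hrs]
      exact mem_adjoin_simple_self N x
    have hle : N⟮f⟯ ≤ N⟮x⟯ := IntermediateField.adjoin_simple_le_iff.2 hfx
    have hfinx : FiniteDimensional N (N⟮x⟯) := IntermediateField.adjoin.finiteDimensional (hint x)
    have hrx : Module.finrank N (N⟮x⟯) = p := by
      rw [IntermediateField.adjoin.finrank (hint x), natDegree_minpoly_eq hxN' ⟨x ^ p, hpow x⟩ rfl]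
    have hrf : Module.finrank N (N⟮f⟯) = p := by
      rw [IntermediateField.adjoin.finrank (hint f), natDegree_minpoly_eq hfN' ⟨f ^ p, hpow f⟩ rfl]
    have heq : N⟮f⟯ = N⟮x⟯ :=
      IntermediateField.eq_of_le_of_finrank_eq hle (by rw [hrx, hrf])
    rw [heq]
    exact mem_adjoin_simple_self N x
  have hsurj : Function.Surjective (aeval (R := N) f) := by
    intro x
    obtain ⟨P, hP⟩ := (mem_adjoin_of_integral (hint f)).1 (htop x)
    exact ⟨P, hP⟩
  have hd : ∀ P : N[X], aeval (R := N) f P = 0 →
      aeval (R := N) f (derivative' (R := N) P) = 0 := by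
    intro P hP
    have hdvd : (X ^ p - C (⟨f ^ p, hpow f⟩ : N) : N[X]) ∣ P := by
      rw [← minpoly_eq hfN' ⟨f ^ p, hpow f⟩ rfl]
      exact minpoly.dvd N f hP
    obtain ⟨Q, rfl⟩ := hdvd
    simp only [derivative'_apply, derivative_mul, derivative_sub, derivative_X_pow, derivative_C,
      map_add, map_mul, map_sub, map_pow, aeval_X, aeval_C, sub_zero]
    have h1 : algebraMap N F ⟨f ^ p, hpow f⟩ = f ^ p := rfl
    simp [h1]
  let D₀ : Derivation N F F := Derivation.liftOfSurjective hsurj hd
  have hD₀ : ∀ P : N[X], D₀ (aeval f P) = aeval f (derivative P) := by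
    intro P
    exact Derivation.liftOfSurjective_apply hsurj hd P
  refine ⟨D₀.restrictScalars (PP F p), ?_, ?_⟩
  · intro m hm
    exact D₀.map_algebraMap (⟨m, hMN hm⟩ : N)
  · change D₀ f = 1
    have := hD₀ X
    simpa using this

end ExistsDer

end Crest.Agent.S0010Lib
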