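import Crest.Agent.S0010Lib.Basic
import Crest.Prelude.Def_MilnorK

set_option autoImplicit false
set_option linter.unusedSectionVars false
set_option linter.style.haveILetI false

open Polynomial IntermediateField Crest.NumberTheoryR.MilnorK
open scoped TensorProduct

namespace Crest.Agent.S0010Lib

section Classes

/-- Shortcut instance: makes additive lemmas applicable to `KOne F p`. -/
noncomputable scoped instance (priority := high) instAG {F : Type*} [Field F] {p : ℕ} :
    AddGroup (KOne F p) := (QuotientAddGroup.Quotient.addCommGroup _).toAddGroup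

variable {F : Type*} [Field F] (p : ℕ) [hp : Fact p.Prime] [hc : CharP F p]

open scoped Classical in
/-- The class of an element of `F` in `Fˣ/(Fˣ)^p`; zero at zero. -/
noncomputable def cl (u : F) : KOne F p :=
  if h : u = 0 then 0 else cls F p (Units.mk0 u h)

variable {p}

lemma cl_of_ne {u : F} (h : u ≠ 0) : cl p u = cls F p (Units.mk0 u h) := dif_neg h

lemma cl_zero : cl p (0 : F) = 0 := dif_pos rfl

lemma cls_eq (u : Fˣ) : cls F p u = cl p (u : F) := by
  rw [cl_of_ne u.ne_zero]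
  congr 1
  ext
  rfl

lemma cl_mul {u v : F} (hu : u ≠ 0) (hv : v ≠ 0) : cl p (u * v) = cl p u + cl p v := by
  rw [cl_of_ne hu, cl_of_ne hv, cl_of_ne (mul_ne_zero hu hv)]
  have : Units.mk0 (u * v) (mul_ne_zero hu hv) = Units.mk0 u hu * Units.mk0 v hv := by
    ext
    rfl
  rw [this]
  rfl

lemma cl_one : cl p (1 : F) = 0 := by
  have h := cl_mul (p := p) (one_ne_zero (α := F)) (one_ne_zero (α := F))
  rw [mul_one] at h
  exact left_eq_add.1 h

lemma cl_inv {u : F} (hu : u ≠ 0) : cl p u⁻¹ = - cl p u := by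
  have h := cl_mul (p := p) hu (inv_ne_zero hu)
  rw [mul_inv_cancel₀ hu, cl_one] at h
  exact (neg_eq_of_add_eq_zero_right h.symm).symm

lemma cl_div {u v : F} (hu : u ≠ 0) (hv : v ≠ 0) : cl p (u / v) = cl p u - cl p v := by
  rw [div_eq_mul_inv, cl_mul hu (inv_ne_zero hv), cl_inv hv, sub_eq_add_neg]

lemma cl_pow {u : F} (hu : u ≠ 0) (n : ℕ) : cl p (u ^ n) = n • cl p u := by
  induction n with
  | zero => simp [cl_one]
  | succ k ih => rw [pow_succ, cl_mul (pow_ne_zero _ hu) hu, ih, succ_nsmul]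

lemma cl_eq_zero_iff {u : F} (hu : u ≠ 0) : cl p u = 0 ↔ u ∈ PP F p := by
  rw [cl_of_ne hu, mem_PP]
  unfold cls
  rw [QuotientAddGroup.eq_zero_iff]
  unfold pMultiples
  rw [AddMonoidHom.mem_range]
  constructor
  · rintro ⟨y, hy⟩
    refine ⟨((Additive.toMul y : Fˣ) : F), ?_⟩
    have := congrArg (fun a : Additive Fˣ => ((Additive.toMul a : Fˣ) : F)) hy
    simpa using this
  · rintro ⟨y, hy⟩
    have hy0 : y ≠ 0 := by
      rintro rfl
      rw [zero_pow hp.out.ne_zero] at hy
      exact hu hy.symm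
    refine ⟨Additive.ofMul (Units.mk0 y hy0), ?_⟩
    apply Additive.toMul.injective
    ext
    simpa using hy

lemma exists_cl (a : KOne F p) : ∃ u : F, u ≠ 0 ∧ cl p u = a := by
  induction a using QuotientAddGroup.induction_on with
  | H z =>
    refine ⟨((Additive.toMul z : Fˣ) : F), (Additive.toMul z).ne_zero, ?_⟩
    rw [← cls_eq]
    rfl

lemma cl_eq_iff {u v : F} (hu : u ≠ 0) (hv : v ≠ 0) : cl p u = cl p v ↔ u / v ∈ PP F p := by
  rw [← cl_eq_zero_iff (div_ne_zero hu hv), cl_div hu hv, sub_eq_zero]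

lemma cl_PP_mul {c u : F} (hc' : c ∈ PP F p) (hc0 : c ≠ 0) (hu : u ≠ 0) :
    cl p (c * u) = cl p u := by
  rw [cl_mul hc0 hu, (cl_eq_zero_iff hc0).2 hc', zero_add]

lemma cl_PP {c : F} (hc' : c ∈ PP F p) : cl p c = 0 := by
  by_cases hc0 : c = 0
  · rw [hc0, cl_zero]
  · exact (cl_eq_zero_iff hc0).2 hc'

/-- equal classes: one element is a nonzero `p`-th power multiple of the other. -/
lemma eq_mul_of_cl_eq {u v : F} (hu : u ≠ 0) (hv : v ≠ 0) (h : cl p u = cl p v) :
    ∃ c : F, c ∈ PP F p ∧ c ≠ 0 ∧ v = c * u := by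
  refine ⟨v / u, (cl_eq_iff hv hu).1 h.symm, div_ne_zero hv hu, ?_⟩
  field_simp

/-- The logarithmic derivative on units. -/
noncomputable def dlU (D : Der F p) : Additive Fˣ →+ F :=
  AddMonoidHom.mk' (fun u => D ((Additive.toMul u : Fˣ) : F) / ((Additive.toMul u : Fˣ) : F)) (by
    intro a b
    have ha := (Additive.toMul a).ne_zero
    have hb := (Additive.toMul b).ne_zero
    simp only [toMul_add, Units.val_mul, Derivation.leibniz, smul_eq_mul]
    field_simp
    ring)

/-- The logarithmic derivative on classes. -/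
noncomputable def dl (D : Der F p) : KOne F p →+ F :=
  QuotientAddGroup.lift _ (dlU D) (by
    rintro _ ⟨y, rfl⟩
    rw [AddMonoidHom.mem_ker]
    simp only [dlU, nsmulAddMonoidHom_apply, AddMonoidHom.mk'_apply, toMul_nsmul, Units.val_pow_eq_pow_val]
    rw [der_pow_p, zero_div])

lemma dl_cl (D : Der F p) {u : F} (hu : u ≠ 0) : dl D (cl p u) = D u / u := by
  rw [cl_of_ne hu]
  rfl

/-- Two classes are perpendicular when their logarithmic differentials are proportional. -/
def Perp (a b : KOne F p) : Prop :=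
  ∀ D₁ D₂ : Der F p, dl D₁ a * dl D₂ b = dl D₂ a * dl D₁ b

lemma Perp.symm {a b : KOne F p} (h : Perp a b) : Perp b a := by
  intro D₁ D₂
  have := h D₂ D₁
  linear_combination this

lemma perp_comm {a b : KOne F p} : Perp a b ↔ Perp b a := ⟨Perp.symm, Perp.symm⟩

lemma perp_self (a : KOne F p) : Perp a a := by
  intro D₁ D₂
  ring

lemma perp_zero_left (b : KOne F p) : Perp 0 b := by
  intro D₁ D₂
  simp

lemma perp_zero_right (a : KOne F p) : Perp a 0 := (perp_zero_left a).symm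

lemma Perp.add_left {a a' b : KOne F p} (h : Perp a b) (h' : Perp a' b) : Perp (a + a') b := by
  intro D₁ D₂
  have h1 := h D₁ D₂
  have h2 := h' D₁ D₂
  simp only [map_add]
  linear_combination h1 + h2

lemma Perp.add_right {a b b' : KOne F p} (h : Perp a b) (h' : Perp a b') : Perp a (b + b') :=
  (Perp.add_left h.symm h'.symm).symm

lemma Perp.neg_left {a b : KOne F p} (h : Perp a b) : Perp (-a) b := by
  intro D₁ D₂
  have h1 := h D₁ D₂
  simp only [map_neg]
  linear_combination -h1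

lemma Perp.neg_right {a b : KOne F p} (h : Perp a b) : Perp a (-b) := h.symm.neg_left.symm

lemma Perp.sub_left {a a' b : KOne F p} (h : Perp a b) (h' : Perp a' b) : Perp (a - a') b := by
  rw [sub_eq_add_neg]
  exact h.add_left h'.neg_left

lemma Perp.sub_right {a b b' : KOne F p} (h : Perp a b) (h' : Perp a b') : Perp a (b - b') :=
  (Perp.sub_left h.symm h'.symm).symm

lemma Perp.nsmul_left {a b : KOne F p} (h : Perp a b) (n : ℕ) : Perp (n • a) b := by
  induction n with
  | zero => simpa using perp_zero_left b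
  | succ k ih =>
    rw [succ_nsmul]
    exact ih.add_left h

lemma Perp.nsmul_right {a b : KOne F p} (h : Perp a b) (n : ℕ) : Perp a (n • b) :=
  (h.symm.nsmul_left n).symm

lemma zmod_smul_eq (r : ZMod p) (m : KOne F p) : r • m = r.val • m := by
  conv_lhs => rw [← ZMod.natCast_zmod_val r]
  rw [Nat.cast_smul_eq_nsmul]

lemma Perp.smul_left {a b : KOne F p} (h : Perp a b) (r : ZMod p) : Perp (r • a) b := by
  rw [zmod_smul_eq]
  exact h.nsmul_left _

lemma Perp.smul_right {a b : KOne F p} (h : Perp a b) (r : ZMod p) : Perp a (r • b) :=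
  (h.symm.smul_left r).symm

/-- A class is nonzero iff some logarithmic derivative does not vanish. -/
lemma exists_dl_ne {a : KOne F p} (ha : a ≠ 0) : ∃ D : Der F p, dl D a ≠ 0 := by
  obtain ⟨u, hu, rfl⟩ := exists_cl a
  have huE : u ∉ PP F p := fun h => ha ((cl_eq_zero_iff hu).2 h)
  have hbot : u ∉ (⊥ : IntermediateField (PP F p) F) := by
    rw [IntermediateField.mem_bot]
    rintro ⟨c, rfl⟩
    exact huE c.2
  obtain ⟨D, -, hD⟩ := exists_der ⊥ hbot
  refine ⟨D, ?_⟩
  rw [dl_cl D hu, hD]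
  exact div_ne_zero one_ne_zero hu

lemma Perp.trans {a b c : KOne F p} (hb : b ≠ 0) (hab : Perp a b) (hbc : Perp b c) :
    Perp a c := by
  obtain ⟨D₀, hD₀⟩ := exists_dl_ne hb
  intro D₁ D₂
  have h1 := hab D₁ D₀
  have h2 := hab D₂ D₀
  have h3 := hbc D₀ D₁
  have h4 := hbc D₀ D₂
  apply mul_left_cancel₀ (mul_ne_zero hD₀ hD₀)
  -- all logarithmic derivatives are multiples of those of `b`
  linear_combination (dl D₀ b * dl D₂ c) * h1 - (dl D₀ b * dl D₁ c) * h2
    + (dl D₀ a * dl D₁ b) * h4 - (dl D₀ a * dl D₂ b) * h3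

/-- `D` such that `D r = r`, killing `M ∌ r`. -/
lemma exists_der_self (M : IntermediateField (PP F p) F) {r : F} (hr : r ∉ M) :
    ∃ D : Der F p, (∀ m ∈ M, D m = 0) ∧ D r = r := by
  obtain ⟨D, hD, hDr⟩ := exists_der M hr
  refine ⟨r • D, fun m hm => ?_, ?_⟩
  · simp [hD m hm]
  · simp [hDr]

lemma not_mem_bot_of_not_PP {u : F} (hu : u ∉ PP F p) :
    u ∉ (⊥ : IntermediateField (PP F p) F) := by
  rw [IntermediateField.mem_bot]
  rintro ⟨c, rfl⟩
  exact hu c.2

lemma exists_der_self_of_not_PP {r : F} (hr : r ∉ PP F p) :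
    ∃ D : Der F p, D r = r := by
  obtain ⟨D, -, hD⟩ := exists_der_self ⊥ (not_mem_bot_of_not_PP hr)
  exact ⟨D, hD⟩

/-- Perpendicularity in terms of `E(f)`. -/
theorem perp_cl_iff {f g : F} (hf : f ∉ PP F p) (hf0 : f ≠ 0) (hg0 : g ≠ 0) :
    Perp (cl p f) (cl p g) ↔ g ∈ Ea (p := p) f := by
  constructor
  · intro h
    by_contra hg
    obtain ⟨D, hDf, hDg⟩ := exists_der (Ea (p := p) f) hg
    obtain ⟨D', hD'⟩ := exists_der_self_of_not_PP hf
    have := h D' D
    rw [dl_cl D' hf0, dl_cl D hg0, dl_cl D hf0, dl_cl D' hg0, hDf f (self_mem_Ea f), hDg, hD',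
      div_self hf0, zero_div, zero_mul, one_mul] at this
    exact (inv_ne_zero hg0) (by simpa using this)
  · intro h D₁ D₂
    obtain ⟨P, rfl⟩ := mem_Ea.1 h
    rw [dl_cl D₁ hf0, dl_cl D₂ hg0, dl_cl D₂ hf0, dl_cl D₁ hg0, der_aeval, der_aeval]
    ring

/-- elements of `E(f)` are pairwise perpendicular (also for `f ∈ E`). -/
theorem perp_of_mem_Ea {f g h : F} (hg0 : g ≠ 0) (hh0 : h ≠ 0)
    (hg : g ∈ Ea (p := p) f) (hh : h ∈ Ea (p := p) f) :
    Perp (cl p g) (cl p h) := by
  intro D₁ D₂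
  obtain ⟨P, rfl⟩ := mem_Ea.1 hg
  obtain ⟨Q, rfl⟩ := mem_Ea.1 hh
  rw [dl_cl D₁ hg0, dl_cl D₂ hh0, dl_cl D₂ hg0, dl_cl D₁ hh0, der_aeval, der_aeval, der_aeval,
    der_aeval]
  ring

/-! ### Steinberg elements -/

/-- The bi-additive pairing attached to two derivations. -/
noncomputable def epsHom (D₁ D₂ : Der F p) : KOne F p →+ KOne F p →+ F :=
  AddMonoidHom.mk' (fun a => AddMonoidHom.mk' (fun b => dl D₁ a * dl D₂ b - dl D₂ a * dl D₁ b)
    (by intro b b'; simp only [map_add]; ring))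
    (by
      intro a a'
      refine AddMonoidHom.ext fun b => ?_
      simp only [map_add, AddMonoidHom.mk'_apply, AddMonoidHom.add_apply]
      ring)

lemma epsHom_apply (D₁ D₂ : Der F p) (a b : KOne F p) :
    epsHom D₁ D₂ a b = dl D₁ a * dl D₂ b - dl D₂ a * dl D₁ b := rfl

/-- The pairing on the tensor square. -/
noncomputable def eps (D₁ D₂ : Der F p) :
    (KOne F p) ⊗[ZMod p] (KOne F p) →+ F :=
  TensorProduct.liftAddHom (epsHom D₁ D₂) (by
    intro r m n
    rw [zmod_smul_eq, zmod_smul_eq, map_nsmul, AddMonoidHom.nsmul_apply, map_nsmul])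

lemma eps_tmul (D₁ D₂ : Der F p) (a b : KOne F p) :
    eps D₁ D₂ (a ⊗ₜ[ZMod p] b) = dl D₁ a * dl D₂ b - dl D₂ a * dl D₁ b := by
  simp [eps, epsHom_apply]

lemma eps_steinberg (D₁ D₂ : Der F p) {t : (KOne F p) ⊗[ZMod p] (KOne F p)}
    (ht : t ∈ steinberg F p) : eps D₁ D₂ t = 0 := by
  unfold steinberg at ht
  induction ht using Submodule.span_induction with
  | mem x hx =>
    obtain ⟨f, hf, hf1, rfl⟩ := hx
    change eps D₁ D₂ ((cls F p (Units.mk0 f hf)) ⊗ₜ[ZMod p] (cls F p (Units.mk0 (1 - f) hf1))) = 0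
    rw [cls_eq, cls_eq, eps_tmul]
    simp only [Units.val_mk0]
    rw [dl_cl D₁ hf, dl_cl D₂ hf1, dl_cl D₂ hf, dl_cl D₁ hf1]
    simp only [map_sub, Derivation.map_one_eq_zero, zero_sub]
    ring
  | zero => simp
  | add x y _ _ hx hy => rw [map_add, hx, hy, add_zero]
  | smul r x _ hx =>
    have h2 : r • x = r.val • x := by
      conv_lhs => rw [← ZMod.natCast_zmod_val r]
      rw [Nat.cast_smul_eq_nsmul]
    rw [h2, map_nsmul, hx, smul_zero]

theorem perp_of_tmul_mem {a b : KOne F p} (h : a ⊗ₜ[ZMod p] b ∈ steinberg F p) : Perp a b := by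
  intro D₁ D₂
  have := eps_steinberg D₁ D₂ h
  rw [eps_tmul] at this
  exact sub_eq_zero.1 this

end Classes

end Crest.Agent.S0010Lib
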