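import Crest.Agent.S0010Lib.Key

set_option autoImplicit false
set_option linter.unusedSectionVars false
set_option linter.style.haveILetI false

open Polynomial IntermediateField Crest.NumberTheoryR.MilnorK
open scoped TensorProduct

namespace Crest.Agent.S0010Lib

section Uniq

variable {F : Type*} [Field F] {p : ℕ} [hp : Fact p.Prime] [hc : CharP F p]

lemma pow_not_PP {w : F} (hw : w ∉ PP F p) (hw0 : w ≠ 0) {d : ℕ} (h0 : 0 < d) (h1 : d < p) :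
    w ^ d ∉ PP F p := by
  intro h
  obtain ⟨D, hD⟩ := exists_der_self_of_not_PP hw
  have := der_PP D h
  rw [der_pow_of_eq (c := 1) (by rw [hD, one_mul])] at this
  simp only [mul_one] at this
  exact (mul_ne_zero (natCast_ne_zero_of_lt h0 h1) (pow_ne_zero _ hw0)) this

lemma not_PP_of_not_perp_left {a b : F} (ha0 : a ≠ 0) (h : ¬ Perp (cl p a) (cl p b)) :
    a ∉ PP F p := by
  intro h'
  apply h
  rw [(cl_eq_zero_iff ha0).2 h']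
  exact perp_zero_left _

lemma not_PP_of_not_perp_right {a b : F} (hb0 : b ≠ 0) (h : ¬ Perp (cl p a) (cl p b)) :
    b ∉ PP F p := by
  intro h'
  apply h
  rw [(cl_eq_zero_iff hb0).2 h']
  exact perp_zero_right _

lemma not_mem_Ea_of_not_perp {a b : F} (ha0 : a ≠ 0) (hb0 : b ≠ 0)
    (h : ¬ Perp (cl p a) (cl p b)) : b ∉ Ea (p := p) a :=
  fun h' => h ((perp_cl_iff (not_PP_of_not_perp_left ha0 h) ha0 hb0).2 h')

lemma dl_smul_eq {D : Der F p} {z h u : F} {e : ℕ} (he0 : 0 < e) (hep : e < p) (hz0 : z ≠ 0)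
    (hh : h ≠ 0) (h₁ : e • cl p z = cl p h) (hD : D h = e * u) :
    dl D (cl p z) = u / h := by
  have h1 := congrArg (dl D) h₁
  rw [map_nsmul, dl_cl D hh, hD, nsmul_eq_mul] at h1
  have he : (e : F) ≠ 0 := natCast_ne_zero_of_lt he0 hep
  apply mul_left_cancel₀ he
  rw [h1]
  ring

private lemma exp_z_aux {r s z : F} (hr0 : r ≠ 0) (hs0 : s ≠ 0) (hz0 : z ≠ 0)
    (hrs : ¬ Perp (cl p r) (cl p s)) {e₁ e₂ : ℕ} {c₁ c₂ : F}
    (he₁0 : 0 < e₁) (he₁p : e₁ < p) (he₂0 : 0 < e₂) (he₂p : e₂ < p)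
    (hc₁ : c₁ ∈ PP F p) (hc₁0 : c₁ ≠ 0) (hc₂ : c₂ ∈ PP F p) (hc₂0 : c₂ ≠ 0)
    (hn₁ : s ^ e₁ + c₁ * r ^ e₁ ≠ 0) (hn₂ : s ^ e₂ + c₂ * r ^ e₂ ≠ 0)
    (h₁ : e₁ • cl p z = cl p (s ^ e₁ + c₁ * r ^ e₁))
    (h₂ : e₂ • cl p z = cl p (s ^ e₂ + c₂ * r ^ e₂)) (hlt : e₁ < e₂) : False := by
  have hsnr : s ∉ Ea (p := p) r := not_mem_Ea_of_not_perp hr0 hs0 hrs
  obtain ⟨D, hk, hD⟩ := exists_der_self _ hsnr
  have hDr : D r = 0 := hk r (self_mem_Ea r)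
  have hDf : ∀ (e : ℕ) (c : F), c ∈ PP F p → D (s ^ e + c * r ^ e) = e * s ^ e := by
    intro e c hc
    have h3 : D (c * r ^ e) = 0 := hk _ (mul_mem (PP_mem_Ea r hc) (pow_mem (self_mem_Ea r) _))
    rw [map_add, h3, add_zero, der_pow_of_eq (c := 1) (by rw [hD, one_mul])]
    ring
  have l₁ := dl_smul_eq he₁0 he₁p hz0 hn₁ h₁ (hDf e₁ c₁ hc₁)
  have l₂ := dl_smul_eq he₂0 he₂p hz0 hn₂ h₂ (hDf e₂ c₂ hc₂)
  rw [l₁] at l₂
  rw [div_eq_div_iff hn₁ hn₂] at l₂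
  obtain ⟨d, rfl⟩ : ∃ d, e₂ = e₁ + d := ⟨e₂ - e₁, by omega⟩
  have hd0 : 0 < d := by omega
  have hdp : d < p := by omega
  have h5 : s ^ e₁ * r ^ e₁ * (c₂ * r ^ d - s ^ d * c₁) = 0 := by
    simp only [pow_add] at l₂
    linear_combination l₂
  have h6 : c₂ * r ^ d = s ^ d * c₁ := by
    rcases mul_eq_zero.1 h5 with h7 | h7
    · exact absurd h7 (mul_ne_zero (pow_ne_zero _ hs0) (pow_ne_zero _ hr0))
    · exact sub_eq_zero.1 h7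
  have hwE : s / r ∉ PP F p := by
    intro h
    apply hrs
    have := (cl_eq_iff hs0 hr0).2 h
    rw [this]
    exact perp_self _
  apply pow_not_PP hwE (div_ne_zero hs0 hr0) hd0 hdp
  have : (s / r) ^ d = c₂ / c₁ := by
    rw [div_pow, div_eq_div_iff (pow_ne_zero _ hr0) hc₁0]
    linear_combination -h6
  rw [this]
  exact div_mem hc₂ hc₁

/-- Uniqueness of the exponent from the sum formula. -/
lemma exp_z_unique {r s z : F} (hr0 : r ≠ 0) (hs0 : s ≠ 0) (hz0 : z ≠ 0)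
    (hrs : ¬ Perp (cl p r) (cl p s)) {e₁ e₂ : ℕ} {c₁ c₂ : F}
    (he₁0 : 0 < e₁) (he₁p : e₁ < p) (he₂0 : 0 < e₂) (he₂p : e₂ < p)
    (hc₁ : c₁ ∈ PP F p) (hc₁0 : c₁ ≠ 0) (hc₂ : c₂ ∈ PP F p) (hc₂0 : c₂ ≠ 0)
    (hn₁ : s ^ e₁ + c₁ * r ^ e₁ ≠ 0) (hn₂ : s ^ e₂ + c₂ * r ^ e₂ ≠ 0)
    (h₁ : e₁ • cl p z = cl p (s ^ e₁ + c₁ * r ^ e₁))
    (h₂ : e₂ • cl p z = cl p (s ^ e₂ + c₂ * r ^ e₂)) : e₁ = e₂ := by
  rcases lt_trichotomy e₁ e₂ with h | h | h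
  · exact (exp_z_aux hr0 hs0 hz0 hrs he₁0 he₁p he₂0 he₂p hc₁ hc₁0 hc₂ hc₂0 hn₁ hn₂ h₁ h₂ h).elim
  · exact h
  · exact (exp_z_aux hr0 hs0 hz0 hrs he₂0 he₂p he₁0 he₁p hc₂ hc₂0 hc₁ hc₁0 hn₂ hn₁ h₂ h₁ h).elim

private lemma exp_a_aux {r a : F} (hr0 : r ≠ 0) (ha0 : a ≠ 0) (hrE : r ∉ PP F p) {e₁ e₂ : ℕ} {t₁ t₂ : F}
    (he₁0 : 0 < e₁) (he₁p : e₁ < p) (he₂0 : 0 < e₂) (he₂p : e₂ < p)
    (ht₁ : t₁ ∈ PP F p) (ht₁0 : t₁ ≠ 0) (ht₂ : t₂ ∈ PP F p) (ht₂0 : t₂ ≠ 0)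
    (hn₁ : r ^ e₁ + t₁ ≠ 0) (hn₂ : r ^ e₂ + t₂ ≠ 0)
    (h₁ : e₁ • cl p a = cl p (r ^ e₁ + t₁))
    (h₂ : e₂ • cl p a = cl p (r ^ e₂ + t₂)) (hlt : e₁ < e₂) : False := by
  obtain ⟨D, hD⟩ := exists_der_self_of_not_PP hrE
  have hDf : ∀ (e : ℕ) (t : F), t ∈ PP F p → D (r ^ e + t) = e * r ^ e := by
    intro e t ht
    rw [map_add, der_PP D ht, add_zero, der_pow_of_eq (c := 1) (by rw [hD, one_mul])]
    ring
  have l₁ := dl_smul_eq he₁0 he₁p ha0 hn₁ h₁ (hDf e₁ t₁ ht₁)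
  have l₂ := dl_smul_eq he₂0 he₂p ha0 hn₂ h₂ (hDf e₂ t₂ ht₂)
  rw [l₁] at l₂
  rw [div_eq_div_iff hn₁ hn₂] at l₂
  obtain ⟨d, rfl⟩ : ∃ d, e₂ = e₁ + d := ⟨e₂ - e₁, by omega⟩
  have hd0 : 0 < d := by omega
  have hdp : d < p := by omega
  have h5 : r ^ e₁ * (t₂ - r ^ d * t₁) = 0 := by
    simp only [pow_add] at l₂
    linear_combination l₂
  have h6 : t₂ = r ^ d * t₁ := by
    rcases mul_eq_zero.1 h5 with h7 | h7
    · exact absurd h7 (pow_ne_zero _ hr0)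
    · exact sub_eq_zero.1 h7
  apply pow_not_PP hrE hr0 hd0 hdp
  have : r ^ d = t₂ / t₁ := by
    rw [h6]
    field_simp
  rw [this]
  exact div_mem ht₂ ht₁

/-- Uniqueness of the exponent from the line formula. -/
lemma exp_a_unique {r a : F} (hr0 : r ≠ 0) (ha0 : a ≠ 0) (hrE : r ∉ PP F p) {e₁ e₂ : ℕ} {t₁ t₂ : F}
    (he₁0 : 0 < e₁) (he₁p : e₁ < p) (he₂0 : 0 < e₂) (he₂p : e₂ < p)
    (ht₁ : t₁ ∈ PP F p) (ht₁0 : t₁ ≠ 0) (ht₂ : t₂ ∈ PP F p) (ht₂0 : t₂ ≠ 0)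
    (hn₁ : r ^ e₁ + t₁ ≠ 0) (hn₂ : r ^ e₂ + t₂ ≠ 0)
    (h₁ : e₁ • cl p a = cl p (r ^ e₁ + t₁))
    (h₂ : e₂ • cl p a = cl p (r ^ e₂ + t₂)) : e₁ = e₂ := by
  rcases lt_trichotomy e₁ e₂ with h | h | h
  · exact (exp_a_aux hr0 ha0 hrE he₁0 he₁p he₂0 he₂p ht₁ ht₁0 ht₂ ht₂0 hn₁ hn₂ h₁ h₂ h).elim
  · exact h
  · exact (exp_a_aux hr0 ha0 hrE he₂0 he₂p he₁0 he₁p ht₂ ht₂0 ht₁ ht₁0 hn₂ hn₁ h₂ h₁ h).elim

/-! Source-level relations -/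

lemma perp_add_cl {u v : F} (hu : u ≠ 0) (hv : v ≠ 0) (huv : u + v ≠ 0) :
    Perp (cl p (u + v) - cl p u) (cl p v - cl p u) := by
  rw [← cl_div huv hu, ← cl_div hv hu]
  have hf : v / u ≠ 0 := div_ne_zero hv hu
  have h1 : (u + v) / u = 1 + v / u := by field_simp
  have h2 : 1 + v / u ≠ 0 := by
    rw [← h1]
    exact div_ne_zero huv hu
  rw [h1]
  intro D₁ D₂
  rw [dl_cl D₁ h2, dl_cl D₂ hf, dl_cl D₂ h2, dl_cl D₁ hf]
  simp only [map_add, Derivation.map_one_eq_zero, zero_add]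
  ring

lemma perp_add_const {u c : F} (hu : u ≠ 0) (hc' : c ∈ PP F p) (huc : u + c ≠ 0) :
    Perp (cl p (u + c)) (cl p u) := by
  intro D₁ D₂
  rw [dl_cl D₁ huc, dl_cl D₂ hu, dl_cl D₂ huc, dl_cl D₁ hu]
  simp only [map_add, der_PP _ hc', add_zero]
  ring

lemma add_PP_not_PP {x t : F} (hx : x ∉ PP F p) (ht : t ∈ PP F p) : x + t ∉ PP F p := by
  intro h
  apply hx
  have := sub_mem h ht
  simpa using this

lemma add_PP_ne_zero {x t : F} (hx : x ∉ PP F p) (ht : t ∈ PP F p) : x + t ≠ 0 := by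
  intro h
  exact add_PP_not_PP hx ht (by rw [h]; exact zero_mem _)

end Uniq

section Exponent

variable {K L : Type*} [Field K] [Field L] {p : ℕ} [hp : Fact p.Prime] [hK : CharP K p]
  [hL : CharP L p]

/-- `Θ` preserves perpendicularity in both directions. -/
def PerpPres (Θ : KOne K p ≃ₗ[ZMod p] KOne L p) : Prop :=
  ∀ a b, Perp a b ↔ Perp (Θ a) (Θ b)

lemma PerpPres.symm {Θ : KOne K p ≃ₗ[ZMod p] KOne L p} (h : PerpPres Θ) : PerpPres Θ.symm := by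
  intro a b
  have := h (Θ.symm a) (Θ.symm b)
  rw [Θ.apply_symm_apply, Θ.apply_symm_apply] at this
  exact this.symm

/-- The property of the map on classes that it sends lines through `1` into lines through `1`. -/
def LineProp (f : KOne K p → KOne L p) : Prop :=
  ∀ x : K, x ∉ PP K p → ∀ t ∈ PP K p, t ≠ 0 → ∀ R : L, R ≠ 0 → cl p R = f (cl p x) →
    ∃ t' ∈ PP L p, t' ≠ 0 ∧ R + t' ≠ 0 ∧ f (cl p (x + t)) = cl p (R + t')

variable {Θ : KOne K p ≃ₗ[ZMod p] KOne L p}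

/-- The output of the key lemma for `Θ`. -/
theorem exists_exp_aux (hΘ : PerpPres Θ) {x y : K} (hx0 : x ≠ 0) (hy0 : y ≠ 0)
    (hxy : ¬ Perp (cl p x) (cl p y)) {r s : L} (hr0 : r ≠ 0) (hs0 : s ≠ 0)
    (hr : cl p r = Θ (cl p x)) (hs : cl p s = Θ (cl p y)) {t : K} (ht : t ∈ PP K p) (ht0 : t ≠ 0) :
    ∃ (e : ℕ) (t' c : L), 0 < e ∧ e < p ∧ t' ∈ PP L p ∧ t' ≠ 0 ∧ c ∈ PP L p ∧ c ≠ 0 ∧
      r ^ e + t' ≠ 0 ∧ s ^ e + c * r ^ e ≠ 0 ∧ e • Θ (cl p (x + t)) = cl p (r ^ e + t') ∧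
      e • Θ (cl p (x + y)) = cl p (s ^ e + c * r ^ e) := by
  have hxE : x ∉ PP K p := not_PP_of_not_perp_left hx0 hxy
  have hyE : y ∉ PP K p := not_PP_of_not_perp_right hy0 hxy
  have hynx : y ∉ Ea (p := p) x := not_mem_Ea_of_not_perp hx0 hy0 hxy
  have hxny : x ∉ Ea (p := p) y := not_mem_Ea_of_not_perp hy0 hx0 (fun h => hxy h.symm)
  have hxy0 : x + y ≠ 0 := by
    intro h
    apply hynx
    have : y = -1 * x := by linear_combination h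
    rw [this]
    exact mul_mem (neg_mem (one_mem _)) (self_mem_Ea x)
  have hxt0 : x + t ≠ 0 := add_PP_ne_zero hxE ht
  have hxyt0 : x + y + t ≠ 0 := by
    intro h
    apply hynx
    have : y = -x - t := by linear_combination h
    rw [this]
    exact sub_mem (neg_mem (self_mem_Ea x)) (PP_mem_Ea x ht)
  have hxyt0' : x + t + y ≠ 0 := by
    rwa [add_right_comm]
  -- lifts
  obtain ⟨z, hz0, hz⟩ := exists_cl (Θ (cl p (x + y)))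
  obtain ⟨a, ha0, ha⟩ := exists_cl (Θ (cl p (x + t)))
  obtain ⟨w, hw0, hw⟩ := exists_cl (Θ (cl p (x + y + t)))
  have hrs : ¬ Perp (cl p r) (cl p s) := by
    rw [hr, hs, ← hΘ]
    exact hxy
  have h1 : Perp (cl p z - cl p r) (cl p s - cl p r) := by
    rw [hz, hr, hs, ← map_sub, ← map_sub, ← hΘ]
    exact perp_add_cl hx0 hy0 hxy0
  have h2 : Perp (cl p a) (cl p r) := by
    rw [ha, hr, ← hΘ]
    exact perp_add_const hx0 ht hxt0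
  have h3 : Perp (cl p w) (cl p z) := by
    rw [hw, hz, ← hΘ]
    exact perp_add_const hxy0 ht hxyt0
  have h4 : Perp (cl p w - cl p a) (cl p s - cl p a) := by
    rw [hw, ha, hs, ← map_sub, ← map_sub, ← hΘ, add_right_comm x y t]
    exact perp_add_cl hxt0 hy0 hxyt0'
  have h5 : ¬ Perp (cl p z) (cl p r) := by
    rw [hz, hr, ← hΘ]
    intro h
    apply hynx
    have h6 := (perp_cl_iff hxE hx0 hxy0).1 h.symm
    have : y = (x + y) - x := by ring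
    rw [this]
    exact sub_mem h6 (self_mem_Ea x)
  have h6 : ¬ Perp (cl p z) (cl p s) := by
    rw [hz, hs, ← hΘ]
    intro h
    apply hxny
    have h6 := (perp_cl_iff hyE hy0 hxy0).1 h.symm
    have : x = (x + y) - y := by ring
    rw [this]
    exact sub_mem h6 (self_mem_Ea y)
  have hinj := Θ.injective
  have h7 : cl p a ≠ 0 := by
    rw [ha]
    intro h
    have h8 : cl p (x + t) = 0 := hinj (by rw [h, map_zero])
    exact add_PP_not_PP hxE ht ((cl_eq_zero_iff hxt0).1 h8)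
  have h8 : cl p a ≠ cl p r := by
    rw [ha, hr]
    intro h
    have h9 : cl p (x + t) = cl p x := hinj h
    have h10 := (cl_eq_iff hxt0 hx0).1 h9
    have h11 : (x + t) / x = 1 + t / x := by field_simp
    rw [h11] at h10
    have h12 : t / x ∈ PP K p := by
      have := sub_mem h10 (one_mem _)
      simpa using this
    have h13 : x = t / (t / x) := by field_simp
    rw [h13] at hxE
    exact hxE (div_mem ht h12)
  rcases key_lemma hr0 hs0 hz0 ha0 hw0 hrs h1 h2 h3 h4 h5 h6 h7 h8 with ⟨i, hi⟩ |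
    ⟨e, t', c, he0, hep, ht', ht'0, hc, hc0, hn₁, hn₂, hae, hze⟩
  · exfalso
    -- `x + t` would be a monomial in `x`
    have h9 : cl p (x + t) = i • cl p x := by
      apply hinj
      rw [map_nsmul, ← ha, ← hr, hi]
    obtain ⟨D, hD⟩ := exists_der_self_of_not_PP hxE
    have h10 := congrArg (dl D) h9
    rw [map_nsmul, dl_cl D hxt0, dl_cl D hx0, map_add, der_PP D ht, add_zero, hD, div_self hx0,
      nsmul_eq_mul, mul_one] at h10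
    have hiPP : (i : K) ∈ PP K p := natCast_mem_PP i
    have h11 : (1 - (i : K)) * x = i * t := by
      field_simp at h10
      linear_combination h10
    by_cases hi1 : (1 - (i : K)) = 0
    · have hi2 : (i : K) = 1 := by linear_combination -hi1
      rw [hi1, zero_mul, hi2, one_mul] at h11
      exact ht0 h11.symm
    · apply hxE
      have : x = i * t / (1 - (i : K)) := by
        field_simp
        linear_combination h11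
      rw [this]
      exact div_mem (mul_mem hiPP ht) (sub_mem (one_mem _) hiPP)
  · refine ⟨e, t', c, he0, hep, ht', ht'0, hc, hc0, hn₁, hn₂, ?_, ?_⟩
    · rw [← ha]; exact hae
    · rw [← hz]; exact hze

/-- For fixed lifts the exponent is independent of the translation. -/
theorem exists_exp_fixed (hΘ : PerpPres Θ) {x y : K} (hx0 : x ≠ 0) (hy0 : y ≠ 0)
    (hxy : ¬ Perp (cl p x) (cl p y)) {r s : L} (hr0 : r ≠ 0) (hs0 : s ≠ 0)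
    (hr : cl p r = Θ (cl p x)) (hs : cl p s = Θ (cl p y)) :
    ∃ (e : ℕ) (c : L), 0 < e ∧ e < p ∧ c ∈ PP L p ∧ c ≠ 0 ∧ s ^ e + c * r ^ e ≠ 0 ∧
      e • Θ (cl p (x + y)) = cl p (s ^ e + c * r ^ e) ∧
      ∀ t ∈ PP K p, t ≠ 0 → ∃ t' ∈ PP L p, t' ≠ 0 ∧ r ^ e + t' ≠ 0 ∧
        e • Θ (cl p (x + t)) = cl p (r ^ e + t') := by
  have hrs : ¬ Perp (cl p r) (cl p s) := by
    rw [hr, hs, ← hΘ]
    exact hxy
  obtain ⟨e, t₁, c, he0, hep, -, -, hc, hc0, -, hn, -, hz⟩ :=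
    exists_exp_aux hΘ hx0 hy0 hxy hr0 hs0 hr hs (one_mem (PP K p)) one_ne_zero
  refine ⟨e, c, he0, hep, hc, hc0, hn, hz, fun t ht ht0 => ?_⟩
  obtain ⟨e', t', c', he'0, he'p, ht', ht'0, hc', hc'0, hn₁, hn₂, ha', hz'⟩ :=
    exists_exp_aux hΘ hx0 hy0 hxy hr0 hs0 hr hs ht ht0
  obtain ⟨z, hz0, hzz⟩ := exists_cl (Θ (cl p (x + y)))
  rw [← hzz] at hz hz'
  have : e' = e := exp_z_unique hr0 hs0 hz0 hrs he'0 he'p he0 hep hc' hc'0 hc hc0 hn₂ hn hz' hz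
  subst this
  exact ⟨t', ht', ht'0, hn₁, ha'⟩

/-- The exponent attached to an element. -/
def HasExp (Θ : KOne K p ≃ₗ[ZMod p] KOne L p) (x : K) (e : ℕ) : Prop :=
  ∀ r : L, r ≠ 0 → cl p r = Θ (cl p x) → ∀ t ∈ PP K p, t ≠ 0 →
    ∃ t' ∈ PP L p, t' ≠ 0 ∧ r ^ e + t' ≠ 0 ∧ e • Θ (cl p (x + t)) = cl p (r ^ e + t')

lemma hasExp_of_lift {x : K} {e : ℕ} {r₀ : L} (hr₀ : r₀ ≠ 0) (hr : cl p r₀ = Θ (cl p x))
    (h : ∀ t ∈ PP K p, t ≠ 0 → ∃ t' ∈ PP L p, t' ≠ 0 ∧ r₀ ^ e + t' ≠ 0 ∧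
      e • Θ (cl p (x + t)) = cl p (r₀ ^ e + t')) : HasExp Θ x e := by
  intro r hr0 hrr t ht ht0
  obtain ⟨b, hb, hb0, rfl⟩ := eq_mul_of_cl_eq hr₀ hr0 (hr.trans hrr.symm)
  obtain ⟨t', ht', ht'0, hn, hf⟩ := h t ht ht0
  have hbe : b ^ e ∈ PP L p := pow_mem hb e
  have hbe0 : b ^ e ≠ 0 := pow_ne_zero e hb0
  have heq : (b * r₀) ^ e + b ^ e * t' = b ^ e * (r₀ ^ e + t') := by
    rw [mul_pow]
    ring
  refine ⟨b ^ e * t', mul_mem hbe ht', mul_ne_zero hbe0 ht'0, ?_, ?_⟩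
  · rw [heq]
    exact mul_ne_zero hbe0 hn
  · rw [heq, cl_PP_mul hbe hbe0 hn]
    exact hf

/-- Independent elements have a common exponent. -/
theorem exists_common_exp (hΘ : PerpPres Θ) {x y : K} (hx0 : x ≠ 0) (hy0 : y ≠ 0)
    (hxy : ¬ Perp (cl p x) (cl p y)) :
    ∃ e : ℕ, 0 < e ∧ e < p ∧ HasExp Θ x e ∧ HasExp Θ y e := by
  obtain ⟨r, hr0, hr⟩ := exists_cl (Θ (cl p x))
  obtain ⟨s, hs0, hs⟩ := exists_cl (Θ (cl p y))
  have hrs : ¬ Perp (cl p r) (cl p s) := by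
    rw [hr, hs, ← hΘ]
    exact hxy
  obtain ⟨e₁, c₁, he₁0, he₁p, hc₁, hc₁0, hn₁, hz₁, hf₁⟩ :=
    exists_exp_fixed hΘ hx0 hy0 hxy hr0 hs0 hr hs
  obtain ⟨e₂, c₂, he₂0, he₂p, hc₂, hc₂0, hn₂, hz₂, hf₂⟩ :=
    exists_exp_fixed hΘ hy0 hx0 (fun h => hxy h.symm) hs0 hr0 hs hr
  obtain ⟨z, hz0, hzz⟩ := exists_cl (Θ (cl p (x + y)))
  rw [add_comm y x, ← hzz] at hz₂
  rw [← hzz] at hz₁
  -- rewrite the second formula
  have heq : r ^ e₂ + c₂ * s ^ e₂ = c₂ * (s ^ e₂ + c₂⁻¹ * r ^ e₂) := by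
    field_simp
    ring
  have hn₃ : s ^ e₂ + c₂⁻¹ * r ^ e₂ ≠ 0 := by
    intro h
    rw [heq, h, mul_zero] at hn₂
    exact hn₂ rfl
  rw [heq, cl_PP_mul hc₂ hc₂0 hn₃] at hz₂
  have : e₁ = e₂ := exp_z_unique hr0 hs0 hz0 hrs he₁0 he₁p he₂0 he₂p hc₁ hc₁0
    (inv_mem hc₂) (inv_ne_zero hc₂0) hn₁ hn₃ hz₁ hz₂
  subst this
  exact ⟨e₁, he₁0, he₁p, hasExp_of_lift hr0 hr hf₁, hasExp_of_lift hs0 hs hf₂⟩

lemma hasExp_unique {x : K} (hx : x ∉ PP K p) {e₁ e₂ : ℕ} (he₁0 : 0 < e₁) (he₁p : e₁ < p)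
    (he₂0 : 0 < e₂) (he₂p : e₂ < p) (h₁ : HasExp Θ x e₁) (h₂ : HasExp Θ x e₂) : e₁ = e₂ := by
  have hx0 : x ≠ 0 := fun h => hx (by rw [h]; exact zero_mem _)
  obtain ⟨r, hr0, hr⟩ := exists_cl (Θ (cl p x))
  have hrE : r ∉ PP L p := by
    intro h
    have h1 := (cl_eq_zero_iff hr0).2 h
    rw [hr] at h1
    have h2 : cl p x = 0 := Θ.injective (by rw [h1, map_zero])
    exact hx ((cl_eq_zero_iff hx0).1 h2)
  obtain ⟨a, ha0, ha⟩ := exists_cl (Θ (cl p (x + 1)))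
  obtain ⟨t₁, ht₁, ht₁0, hn₁, hf₁⟩ := h₁ r hr0 hr 1 (one_mem _) one_ne_zero
  obtain ⟨t₂, ht₂, ht₂0, hn₂, hf₂⟩ := h₂ r hr0 hr 1 (one_mem _) one_ne_zero
  rw [← ha] at hf₁ hf₂
  exact exp_a_unique hr0 ha0 hrE he₁0 he₁p he₂0 he₂p ht₁ ht₁0 ht₂ ht₂0 hn₁ hn₂ hf₁ hf₂

/-- The global exponent. -/
theorem exists_global_exp (hΘ : PerpPres Θ)
    (hrank : ∃ x y : K, x ≠ 0 ∧ y ≠ 0 ∧ ¬ Perp (cl p x) (cl p y)) :
    ∃ e : ℕ, 0 < e ∧ e < p ∧ ∀ x : K, x ∉ PP K p → HasExp Θ x e := by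
  obtain ⟨x₀, y₀, hx₀, hy₀, hxy₀⟩ := hrank
  obtain ⟨e₀, he₀0, he₀p, hx₀e, hy₀e⟩ := exists_common_exp hΘ hx₀ hy₀ hxy₀
  have hx₀E : x₀ ∉ PP K p := not_PP_of_not_perp_left hx₀ hxy₀
  have hy₀E : y₀ ∉ PP K p := not_PP_of_not_perp_right hy₀ hxy₀
  refine ⟨e₀, he₀0, he₀p, fun x hx => ?_⟩
  have hx0 : x ≠ 0 := fun h => hx (by rw [h]; exact zero_mem _)
  have hclx : cl p x ≠ 0 := fun h => hx ((cl_eq_zero_iff hx0).1 h)
  by_cases hp₀ : Perp (cl p x) (cl p x₀)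
  · have hny : ¬ Perp (cl p x) (cl p y₀) := fun h => hxy₀ (Perp.trans hclx hp₀.symm h)
    obtain ⟨e, he0, hep, hxe, hye⟩ := exists_common_exp hΘ hx0 hy₀ hny
    have : e = e₀ := hasExp_unique hy₀E he0 hep he₀0 he₀p hye hy₀e
    rwa [← this]
  · obtain ⟨e, he0, hep, hxe, hye⟩ := exists_common_exp hΘ hx0 hx₀ hp₀
    have : e = e₀ := hasExp_unique hx₀E he0 hep he₀0 he₀p hye hx₀e
    rwa [← this]

/-- After scaling by a suitable exponent, `Θ` sends lines through `1` into lines through `1`. -/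
theorem exists_lineProp (hΘ : PerpPres Θ)
    (hrank : ∃ x y : K, x ≠ 0 ∧ y ≠ 0 ∧ ¬ Perp (cl p x) (cl p y)) :
    ∃ e : ℕ, 0 < e ∧ e < p ∧ LineProp (fun a => e • Θ a) := by
  obtain ⟨e, he0, hep, hall⟩ := exists_global_exp hΘ hrank
  refine ⟨e, he0, hep, ?_⟩
  intro x hx t ht ht0 R hR0 hR
  have hx0 : x ≠ 0 := fun h => hx (by rw [h]; exact zero_mem _)
  obtain ⟨r, hr0, hr⟩ := exists_cl (Θ (cl p x))
  obtain ⟨t', ht', ht'0, hn, hf⟩ := hall x hx r hr0 hr t ht ht0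
  have hcl : cl p (r ^ e) = cl p R := by
    rw [cl_pow hr0, hr, hR]
  obtain ⟨b, hb, hb0, rfl⟩ := eq_mul_of_cl_eq (pow_ne_zero e hr0) hR0 hcl
  have heq : b * r ^ e + b * t' = b * (r ^ e + t') := by ring
  refine ⟨b * t', mul_mem hb ht', mul_ne_zero hb0 ht'0, ?_, ?_⟩
  · rw [heq]
    exact mul_ne_zero hb0 hn
  · rw [heq, cl_PP_mul hb hb0 hn]
    exact hf

end Exponent

end Crest.Agent.S0010Lib
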