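import Crest.Agent.S0010Lib.Exponent

set_option autoImplicit false
set_option linter.unusedSectionVars false
set_option linter.style.haveILetI false
set_option linter.unusedVariables false

open Polynomial IntermediateField Crest.NumberTheoryR.MilnorK
open scoped TensorProduct

namespace Crest.Agent.S0010Lib

section Ind

variable {F : Type*} [Field F] {p : ℕ} [hp : Fact p.Prime] [hc : CharP F p]

/-- `1, x, y` are linearly independent modulo the obvious condition on `x`. -/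
def Ind (p : ℕ) [Fact p.Prime] [CharP F p] (x y : F) : Prop :=
  ∀ a ∈ PP F p, ∀ b ∈ PP F p, y ≠ a + b * x

lemma Ind.not_PP_right {x y : F} (h : Ind p x y) : y ∉ PP F p := by
  intro hy
  exact h y hy 0 (zero_mem _) (by ring)

lemma Ind.lin {x y : F} (hx : x ∉ PP F p) (h : Ind p x y) {a b c : F} (ha : a ∈ PP F p)
    (hb : b ∈ PP F p) (hc' : c ∈ PP F p) (heq : a + b * x + c * y = 0) : a = 0 ∧ b = 0 ∧ c = 0 := by
  have hc0 : c = 0 := by
    by_contra hc0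
    apply h (-a / c) (div_mem (neg_mem ha) hc') (-b / c) (div_mem (neg_mem hb) hc')
    field_simp
    linear_combination heq
  subst hc0
  have hb0 : b = 0 := by
    by_contra hb0
    apply hx
    have : x = -a / b := by
      field_simp
      linear_combination heq
    rw [this]
    exact div_mem (neg_mem ha) hb
  subst hb0
  refine ⟨?_, rfl, rfl⟩
  linear_combination heq

lemma Ind.symm {x y : F} (hx : x ∉ PP F p) (h : Ind p x y) : Ind p y x := by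
  intro a ha b hb heq
  have hb0 : b ≠ 0 := by
    rintro rfl
    apply hx
    rw [heq, zero_mul, add_zero]
    exact ha
  apply h (-a / b) (div_mem (neg_mem ha) hb) (1 / b) (div_mem (one_mem _) hb)
  rw [heq]
  field_simp
  ring

lemma Ind.add_not_PP {x y : F} (h : Ind p x y) : x + y ∉ PP F p := by
  intro hs
  apply h (x + y) hs (-1) (neg_mem (one_mem _))
  ring

lemma Ind.add_right {x y a : F} (h : Ind p x y) (ha : a ∈ PP F p) : Ind p x (y + a) := by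
  intro c hc d hd heq
  apply h (c - a) (sub_mem hc ha) d hd
  linear_combination heq

lemma Ind.add_left {x y a : F} (h : Ind p x y) (ha : a ∈ PP F p) : Ind p (x + a) y := by
  intro c hc d hd heq
  apply h (c + d * a) (add_mem hc (mul_mem hd ha)) d hd
  linear_combination heq

lemma Ind.neg_right {x y : F} (h : Ind p x y) : Ind p x (-y) := by
  intro c hc d hd heq
  apply h (-c) (neg_mem hc) (-d) (neg_mem hd)
  linear_combination -heq

lemma Ind.div_not_PP {x y : F} (hx0 : x ≠ 0) (h : Ind p x y) : y / x ∉ PP F p := by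
  intro hd
  apply h 0 (zero_mem _) (y / x) hd
  field_simp
  ring

lemma Ind.add_self_neg {q q₂ : F} (hq : q ∉ PP F p) (h : Ind p q q₂) : Ind p (q₂ + q) (-q) := by
  intro c hc d hd heq
  by_cases hd0 : d = 0
  · subst hd0
    apply hq
    have : q = -c := by linear_combination -heq
    rw [this]
    exact neg_mem hc
  · apply h (-c / d) (div_mem (neg_mem hc) hd) ((-1 - d) / d)
      (div_mem (sub_mem (neg_mem (one_mem _)) hd) hd)
    field_simp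
    linear_combination -heq

lemma exists_ind (hrank : ∃ x y : F, x ≠ 0 ∧ y ≠ 0 ∧ ¬ Perp (cl p x) (cl p y)) (x : F) :
    ∃ y, Ind p x y := by
  by_contra hcon
  push Not at hcon
  obtain ⟨u, v, hu, hv, huv⟩ := hrank
  have hmem : ∀ y, y ∈ Ea (p := p) x := by
    intro y
    have := hcon y
    unfold Ind at this
    push Not at this
    obtain ⟨a, ha, b, hb, rfl⟩ := this
    exact add_mem (PP_mem_Ea x ha) (mul_mem (PP_mem_Ea x hb) (self_mem_Ea x))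
  exact huv (perp_of_mem_Ea hu hv (hmem u) (hmem v))

lemma exists_ind2 (hrank : ∃ x y : F, x ≠ 0 ∧ y ≠ 0 ∧ ¬ Perp (cl p x) (cl p y)) (x₁ x₂ : F) :
    ∃ y, Ind p x₁ y ∧ Ind p x₂ y := by
  obtain ⟨y₁, hy₁⟩ := exists_ind hrank x₁
  by_cases h2 : Ind p x₂ y₁
  · exact ⟨y₁, hy₁, h2⟩
  obtain ⟨y₂, hy₂⟩ := exists_ind hrank x₂
  by_cases h1 : Ind p x₁ y₂
  · exact ⟨y₂, h1, hy₂⟩
  unfold Ind at h1 h2
  push Not at h1 h2
  obtain ⟨a, ha, b, hb, hab⟩ := h2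
  obtain ⟨a', ha', b', hb', hab'⟩ := h1
  refine ⟨y₁ + y₂, ?_, ?_⟩
  · intro c hc d hd heq
    apply hy₁ (c - a') (sub_mem hc ha') (d - b') (sub_mem hd hb')
    linear_combination heq - hab'
  · intro c hc d hd heq
    apply hy₂ (c - a) (sub_mem hc ha) (d - b) (sub_mem hd hb)
    linear_combination heq - hab

end Ind

section FTPG

variable {K L : Type*} [Field K] [Field L] {p : ℕ} [hp : Fact p.Prime] [hK : CharP K p]
  [hL : CharP L p]

variable {Ψ : KOne K p ≃ₗ[ZMod p] KOne L p}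

/-- `R` is the normalised lift of `Ψ[x]`. -/
def IsLift (Ψ : KOne K p ≃ₗ[ZMod p] KOne L p) (x : K) (R : L) : Prop :=
  R ≠ 0 ∧ cl p R = Ψ (cl p x) ∧ cl p (R + 1) = Ψ (cl p (x + 1))

lemma not_PP_of_lift {x : K} {R : L} (hx : x ∉ PP K p) (hR0 : R ≠ 0) (hR : cl p R = Ψ (cl p x)) :
    R ∉ PP L p := by
  intro h
  have hx0 : x ≠ 0 := fun h => hx (by rw [h]; exact zero_mem _)
  have h1 := (cl_eq_zero_iff hR0).2 h
  rw [hR] at h1
  have h2 : cl p x = 0 := Ψ.injective (by rw [h1, map_zero])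
  exact hx ((cl_eq_zero_iff hx0).1 h2)

lemma exists_lift (hΨ : LineProp (fun a => Ψ a)) {x : K} (hx : x ∉ PP K p) :
    ∃ R, IsLift Ψ x R := by
  obtain ⟨R₀, hR₀, hR₀c⟩ := exists_cl (Ψ (cl p x))
  obtain ⟨t', ht', ht'0, hn, hf⟩ := hΨ x hx 1 (one_mem _) one_ne_zero R₀ hR₀ hR₀c
  refine ⟨R₀ / t', div_ne_zero hR₀ ht'0, ?_, ?_⟩
  · rw [← hR₀c, div_eq_mul_inv, mul_comm, cl_PP_mul (inv_mem ht') (inv_ne_zero ht'0) hR₀]
  · have heq : R₀ / t' + 1 = t'⁻¹ * (R₀ + t') := by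
      field_simp
    rw [heq, cl_PP_mul (inv_mem ht') (inv_ne_zero ht'0) hn]
    exact hf.symm

lemma lift_unique {x : K} (hx : x ∉ PP K p) {R₁ R₂ : L} (h₁ : IsLift Ψ x R₁) (h₂ : IsLift Ψ x R₂) :
    R₁ = R₂ := by
  obtain ⟨h10, h1c, h1d⟩ := h₁
  obtain ⟨h20, h2c, h2d⟩ := h₂
  have hE := not_PP_of_lift hx h10 h1c
  obtain ⟨b, hb, hb0, hbe⟩ := eq_mul_of_cl_eq h10 h20 (h1c.trans h2c.symm)
  have hE2 : R₁ + 1 ≠ 0 := add_PP_ne_zero hE (one_mem _)
  have hE3 : R₂ + 1 ≠ 0 := by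
    rw [hbe]
    intro h
    apply hE
    have : R₁ = -1 / b := by
      field_simp
      linear_combination h
    rw [this]
    exact div_mem (neg_mem (one_mem _)) hb
  obtain ⟨c, hc, hc0, hce⟩ := eq_mul_of_cl_eq hE2 hE3 (h1d.trans h2d.symm)
  -- `b R₁ + 1 = c (R₁ + 1)`
  have hrel : (b - c) * R₁ = c - 1 := by
    rw [hbe] at hce
    linear_combination hce
  have hbc : b = c := by
    by_contra hne
    apply hE
    have : R₁ = (c - 1) / (b - c) := by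
      have : b - c ≠ 0 := sub_ne_zero.2 hne
      field_simp
      linear_combination hrel
    rw [this]
    exact div_mem (sub_mem hc (one_mem _)) (sub_mem hb hc)
  have hc1 : c = 1 := by
    rw [hbc, sub_self, zero_mul] at hrel
    linear_combination -hrel
  rw [hbe, hbc, hc1, one_mul]

/-- Independence transfers to lifts. -/
lemma ind_lift (hΨ' : LineProp (fun a => Ψ.symm a)) {x y : K} {X Y : L} (hx : x ∉ PP K p)
    (h : Ind p x y) (hX0 : X ≠ 0) (hY0 : Y ≠ 0) (hX : cl p X = Ψ (cl p x))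
    (hY : cl p Y = Ψ (cl p y)) : Ind p X Y := by
  intro a ha b hb heq
  have hx0 : x ≠ 0 := fun h => hx (by rw [h]; exact zero_mem _)
  have hyE : y ∉ PP K p := h.not_PP_right
  have hy0 : y ≠ 0 := fun h => hyE (by rw [h]; exact zero_mem _)
  have hXE : X ∉ PP L p := not_PP_of_lift hx hX0 hX
  have hYE : Y ∉ PP L p := not_PP_of_lift hyE hY0 hY
  have hb0 : b ≠ 0 := by
    rintro rfl
    apply hYE
    rw [heq, zero_mul, add_zero]
    exact ha
  by_cases ha0 : a = 0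
  · subst ha0
    have hcl : cl p Y = cl p X := by
      rw [heq, zero_add, cl_PP_mul hb hb0 hX0]
    rw [hX, hY] at hcl
    have hcl2 : cl p y = cl p x := Ψ.injective hcl
    obtain ⟨c, hc, hc0, hce⟩ := eq_mul_of_cl_eq hx0 hy0 hcl2.symm
    exact h 0 (zero_mem _) c hc (by rw [hce]; ring)
  · -- `Y = b (X + a / b)`
    have ht : a / b ∈ PP L p := div_mem ha hb
    have ht0 : a / b ≠ 0 := div_ne_zero ha0 hb0
    have hXs : cl p x = Ψ.symm (cl p X) := by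
      rw [hX, Ψ.symm_apply_apply]
    obtain ⟨t₀, ht₀, ht₀0, hn, hf⟩ := hΨ' X hXE (a / b) ht ht0 x hx0 hXs
    have hYeq : Y = b * (X + a / b) := by
      rw [heq]
      field_simp
      ring
    have hn2 : X + a / b ≠ 0 := add_PP_ne_zero hXE ht
    have hcl : cl p Y = cl p (X + a / b) := by
      rw [hYeq, cl_PP_mul hb hb0 hn2]
    have hcl2 : cl p y = cl p (x + t₀) := by
      have : cl p y = Ψ.symm (cl p Y) := by
        rw [hY, Ψ.symm_apply_apply]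
      rw [this, hcl]
      exact hf
    obtain ⟨c, hc, hc0, hce⟩ := eq_mul_of_cl_eq hn hy0 hcl2.symm
    exact h (c * t₀) (mul_mem hc ht₀) c hc (by rw [hce]; ring)

/-- The image of the line through `u, v`. -/
lemma line_lemma (hΨ : LineProp (fun a => Ψ a)) {u v : K} {U V : L} (hu : u ≠ 0) (hv : v ≠ 0)
    (hE : v / u ∉ PP K p) (hU0 : U ≠ 0) (hV0 : V ≠ 0) (hU : cl p U = Ψ (cl p u))
    (hV : cl p V = Ψ (cl p v)) :
    ∃ β ∈ PP L p, β ≠ 0 ∧ U + β * V ≠ 0 ∧ Ψ (cl p (u + v)) = cl p (U + β * V) := by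
  have hR : cl p (V / U) = Ψ (cl p (v / u)) := by
    rw [cl_div hV0 hU0, cl_div hv hu, map_sub, hU, hV]
  obtain ⟨t', ht', ht'0, hn, hf⟩ :=
    hΨ (v / u) hE 1 (one_mem _) one_ne_zero (V / U) (div_ne_zero hV0 hU0) hR
  have hx1 : v / u + 1 ≠ 0 := add_PP_ne_zero hE (one_mem _)
  have huv : u + v = u * (v / u + 1) := by
    field_simp
    ring
  have hUV : U * (V / U + t') = t' * (U + t'⁻¹ * V) := by
    field_simp
    ring
  have hn2 : U + t'⁻¹ * V ≠ 0 := by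
    intro h
    have := mul_ne_zero hU0 hn
    rw [hUV, h, mul_zero] at this
    exact this rfl
  refine ⟨t'⁻¹, inv_mem ht', inv_ne_zero ht'0, hn2, ?_⟩
  rw [huv, cl_mul hu hx1, map_add, ← hU]
  have hf' : Ψ (cl p (v / u + 1)) = cl p (V / U + t') := hf
  rw [hf', ← cl_mul hU0 hn, hUV, cl_PP_mul ht' ht'0 hn2]

/-- The additivity of lifts on independent pairs. -/
theorem lift_add (hΨ : LineProp (fun a => Ψ a)) (hΨ' : LineProp (fun a => Ψ.symm a)) {x y : K}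
    {X Y : L} (hx : x ∉ PP K p) (h : Ind p x y) (hXl : IsLift Ψ x X) (hYl : IsLift Ψ y Y) :
    IsLift Ψ (x + y) (X + Y) := by
  obtain ⟨hX0, hX, hX1⟩ := hXl
  obtain ⟨hY0, hY, hY1⟩ := hYl
  have hx0 : x ≠ 0 := fun h => hx (by rw [h]; exact zero_mem _)
  have hyE : y ∉ PP K p := h.not_PP_right
  have hy0 : y ≠ 0 := fun h => hyE (by rw [h]; exact zero_mem _)
  have hXE : X ∉ PP L p := not_PP_of_lift hx hX0 hX
  have hind : Ind p X Y := ind_lift hΨ' hx h hX0 hY0 hX hY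
  have hlin := fun {a b c : L} (ha : a ∈ PP L p) (hb : b ∈ PP L p) (hc' : c ∈ PP L p)
    (heq : a + b * X + c * Y = 0) => hind.lin hXE ha hb hc' heq
  have hsym : Ind p y x := h.symm hx
  have hXp : X + 1 ≠ 0 := add_PP_ne_zero hXE (one_mem _)
  have hYE : Y ∉ PP L p := not_PP_of_lift hyE hY0 hY
  have hYp : Y + 1 ≠ 0 := add_PP_ne_zero hYE (one_mem _)
  have hxp : x + 1 ≠ 0 := add_PP_ne_zero hx (one_mem _)
  have hyp : y + 1 ≠ 0 := add_PP_ne_zero hyE (one_mem _)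
  have hsE : x + y ∉ PP K p := h.add_not_PP
  have hs0 : x + y ≠ 0 := fun h => hsE (by rw [h]; exact zero_mem _)
  -- the four lines
  obtain ⟨β, hβ, hβ0, hn, hl⟩ := line_lemma hΨ hx0 hy0 (h.div_not_PP hx0) hX0 hY0 hX hY
  obtain ⟨β₁, hβ₁, hβ₁0, hn₁, hl₁⟩ := line_lemma hΨ hxp hy0
    ((h.add_left (one_mem _)).div_not_PP hxp) hXp hY0 hX1 hY
  obtain ⟨β₂, hβ₂, hβ₂0, hn₂, hl₂⟩ := line_lemma hΨ hyp hx0
    ((hsym.add_left (one_mem _)).div_not_PP hyp) hYp hX0 hY1 hX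
  have hone : (1 : K) / (x + y) ∉ PP K p := by
    intro h'
    apply hsE
    have : x + y = 1 / (1 / (x + y)) := by field_simp
    rw [this]
    exact div_mem (one_mem _) h'
  obtain ⟨β₃, hβ₃, hβ₃0, hn₃, hl₃⟩ := line_lemma hΨ (u := x + y) (v := 1) (U := X + β * Y) (V := 1)
    hs0 one_ne_zero hone hn one_ne_zero hl.symm (by rw [cl_one, cl_one, map_zero])
  -- compare
  have h23 : cl p (X + 1 + β₁ * Y) = cl p (Y + 1 + β₂ * X) := by
    rw [← hl₁, ← hl₂]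
    congr 2
    ring
  obtain ⟨c, hc, hc0, hce⟩ := eq_mul_of_cl_eq hn₁ hn₂ h23
  obtain ⟨h1, h2, h3⟩ := hlin (a := 1 - c) (b := β₂ - c) (c := 1 - c * β₁)
    (sub_mem (one_mem _) hc) (sub_mem hβ₂ hc) (sub_mem (one_mem _) (mul_mem hc hβ₁))
    (by linear_combination hce)
  have hc1 : c = 1 := by linear_combination -h1
  have hb1 : β₁ = 1 := by rw [hc1] at h3; linear_combination -h3
  have hl₁' : Ψ (cl p (x + 1 + y)) = cl p (X + Y + 1) := by
    rw [hl₁, hb1]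
    congr 1
    ring
  have h24 : cl p (X + Y + 1) = cl p (X + β * Y + β₃ * 1) := by
    rw [← hl₁', ← hl₃]
    congr 2
    ring
  have hn4 : X + Y + 1 ≠ 0 := by
    intro h0
    obtain ⟨h5, -, -⟩ := hlin (a := 1) (b := 1) (c := 1) (one_mem _) (one_mem _) (one_mem _)
      (by linear_combination h0)
    exact one_ne_zero h5
  obtain ⟨d, hd, hd0, hde⟩ := eq_mul_of_cl_eq hn4 hn₃ h24
  obtain ⟨h5, h6, h7⟩ := hlin (a := β₃ - d) (b := 1 - d) (c := β - d)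
    (sub_mem hβ₃ hd) (sub_mem (one_mem _) hd) (sub_mem hβ hd) (by linear_combination hde)
  have hd1 : d = 1 := by linear_combination -h6
  have hb : β = 1 := by rw [hd1] at h7; linear_combination h7
  have hnn : X + Y ≠ 0 := by
    intro h0
    obtain ⟨-, h8, -⟩ := hlin (a := 0) (b := 1) (c := 1) (zero_mem _) (one_mem _) (one_mem _)
      (by linear_combination h0)
    exact one_ne_zero h8
  refine ⟨hnn, ?_, ?_⟩
  · rw [hl, hb, one_mul]
  · rw [← hl₁']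
    congr 2
    ring

section Tau

variable (hΨ : LineProp (fun a => Ψ a))

open scoped Classical in
/-- The normalised lift as a function on `K ∖ E`. -/
noncomputable def tau0 (Ψ : KOne K p ≃ₗ[ZMod p] KOne L p) (hΨ : LineProp (fun a => Ψ a)) (x : K) : L :=
  if h : x ∉ PP K p then Classical.choose (exists_lift hΨ h) else 0

lemma tau0_spec {x : K} (h : x ∉ PP K p) : IsLift Ψ x (tau0 Ψ hΨ x) := by
  unfold tau0
  rw [dif_pos h]
  exact Classical.choose_spec (exists_lift hΨ h)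

lemma tau0_eq {x : K} (h : x ∉ PP K p) {X : L} (hX : IsLift Ψ x X) : tau0 Ψ hΨ x = X :=
  lift_unique h (tau0_spec hΨ h) hX

variable (hΨ' : LineProp (fun a => Ψ.symm a))

include hΨ' in
lemma tau0_add {x y : K} (hx : x ∉ PP K p) (h : Ind p x y) :
    tau0 Ψ hΨ (x + y) = tau0 Ψ hΨ x + tau0 Ψ hΨ y :=
  tau0_eq hΨ h.add_not_PP (lift_add hΨ hΨ' hx h (tau0_spec hΨ hx) (tau0_spec hΨ h.not_PP_right))

include hΨ' in
lemma tau0_neg {q : K} (hq : q ∉ PP K p) (h : ∃ y, Ind p q y) :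
    tau0 Ψ hΨ (-q) = -tau0 Ψ hΨ q := by
  obtain ⟨q₂, h₂⟩ := h
  have hsym : Ind p q₂ q := h₂.symm hq
  have hE2 : q₂ ∉ PP K p := h₂.not_PP_right
  have h3 := tau0_add hΨ hΨ' (hsym.add_not_PP) (h₂.add_self_neg hq)
  rw [tau0_add hΨ hΨ' hE2 hsym] at h3
  have h4 : q₂ + q + -q = q₂ := by ring
  rw [h4] at h3
  linear_combination -h3

include hΨ' in
/-- Comparison of translations. -/
lemma tau0_translate {z y a : K} (hz : z ∉ PP K p) (h : Ind p z y) (ha : a ∈ PP K p) :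
    tau0 Ψ hΨ (z + a) + tau0 Ψ hΨ y = tau0 Ψ hΨ z + tau0 Ψ hΨ (y + a) := by
  have h1 := tau0_add hΨ hΨ' (add_PP_not_PP hz ha) (h.add_left ha)
  have h2 := tau0_add hΨ hΨ' hz (h.add_right ha)
  rw [← h1, ← h2]
  congr 1
  ring

/-- The additive map on the `p`-th powers. -/
noncomputable def sig (Ψ : KOne K p ≃ₗ[ZMod p] KOne L p) (hΨ : LineProp (fun a => Ψ a)) (x₀ a : K) : L :=
  tau0 Ψ hΨ (x₀ + a) - tau0 Ψ hΨ x₀

variable (hrank : ∃ x y : K, x ≠ 0 ∧ y ≠ 0 ∧ ¬ Perp (cl p x) (cl p y))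

variable {x₀ : K} (hx₀ : x₀ ∉ PP K p)

include hΨ' hrank hx₀ in
lemma tau0_add_sig {x a : K} (hx : x ∉ PP K p) (ha : a ∈ PP K p) :
    tau0 Ψ hΨ (x + a) = tau0 Ψ hΨ x + sig Ψ hΨ x₀ a := by
  obtain ⟨y, h₁, h₂⟩ := exists_ind2 hrank x x₀
  have e1 := tau0_translate hΨ hΨ' hx h₁ ha
  have e2 := tau0_translate hΨ hΨ' hx₀ h₂ ha
  unfold sig
  linear_combination e1 - e2

include hΨ' hrank hx₀ in
lemma sig_mem {a : K} (ha : a ∈ PP K p) (ha0 : a ≠ 0) :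
    sig Ψ hΨ x₀ a ∈ PP L p ∧ sig Ψ hΨ x₀ a ≠ 0 := by
  obtain ⟨y, hy⟩ := exists_ind hrank x₀
  have hyE : y ∉ PP K p := hy.not_PP_right
  obtain ⟨hX0, hX, hX1⟩ := tau0_spec hΨ hx₀
  obtain ⟨hY0, hY, hY1⟩ := tau0_spec hΨ hyE
  set X := tau0 Ψ hΨ x₀ with hXdef
  set Y := tau0 Ψ hΨ y with hYdef
  have hXE : X ∉ PP L p := not_PP_of_lift hx₀ hX0 hX
  have hYE : Y ∉ PP L p := not_PP_of_lift hyE hY0 hY
  have hind : Ind p X Y := ind_lift hΨ' hx₀ hy hX0 hY0 hX hY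
  -- first line
  obtain ⟨t₁, ht₁, ht₁0, hn₁, hf₁⟩ := hΨ x₀ hx₀ a ha ha0 X hX0 hX
  obtain ⟨t₂, ht₂, ht₂0, hn₂, hf₂⟩ := hΨ y hyE a ha ha0 Y hY0 hY
  have hs₁ := tau0_add_sig hΨ hΨ' hrank hx₀ hx₀ ha
  have hs₂ := tau0_add_sig hΨ hΨ' hrank hx₀ hyE ha
  obtain ⟨hZ0, hZ, -⟩ := tau0_spec hΨ (add_PP_not_PP hx₀ ha)
  obtain ⟨hW0, hW, -⟩ := tau0_spec hΨ (add_PP_not_PP hyE ha)
  have hf₁' : Ψ (cl p (x₀ + a)) = cl p (X + t₁) := hf₁
  have hf₂' : Ψ (cl p (y + a)) = cl p (Y + t₂) := hf₂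
  rw [hf₁'] at hZ
  rw [hf₂'] at hW
  obtain ⟨b₁, hb₁, hb₁0, he₁⟩ := eq_mul_of_cl_eq hn₁ hZ0 hZ.symm
  obtain ⟨b₂, hb₂, hb₂0, he₂⟩ := eq_mul_of_cl_eq hn₂ hW0 hW.symm
  rw [hs₁] at he₁
  rw [hs₂] at he₂
  rw [← hXdef] at he₁
  rw [← hYdef] at he₂
  obtain ⟨h1, h2, h3⟩ := hind.lin hXE (a := b₁ * t₁ - b₂ * t₂) (b := b₁ - 1) (c := 1 - b₂)
    (sub_mem (mul_mem hb₁ ht₁) (mul_mem hb₂ ht₂)) (sub_mem hb₁ (one_mem _))
    (sub_mem (one_mem _) hb₂) (by linear_combination he₂ - he₁)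
  have hb₁1 : b₁ = 1 := by linear_combination h2
  have hb₂1 : b₂ = 1 := by linear_combination -h3
  have hσ : sig Ψ hΨ x₀ a = t₁ := by
    rw [hb₁1, one_mul] at he₁
    linear_combination he₁
  rw [hσ]
  exact ⟨ht₁, ht₁0⟩

include hΨ' hrank hx₀ in
lemma sig_one : sig Ψ hΨ x₀ 1 = 1 := by
  obtain ⟨hX0, hX, hX1⟩ := tau0_spec hΨ hx₀
  have hs₁ := tau0_add_sig hΨ hΨ' hrank hx₀ hx₀ (one_mem (PP K p))
  obtain ⟨hZ0, hZ, -⟩ := tau0_spec hΨ (add_PP_not_PP hx₀ (one_mem (PP K p)))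
  obtain ⟨hmem, hne⟩ := sig_mem hΨ hΨ' hrank hx₀ (one_mem (PP K p)) (one_ne_zero)
  set X := tau0 Ψ hΨ x₀ with hXdef
  have hXE : X ∉ PP L p := not_PP_of_lift hx₀ hX0 hX
  have hcl : cl p (X + 1) = cl p (tau0 Ψ hΨ (x₀ + 1)) := by rw [hX1, hZ]
  obtain ⟨b, hb, hb0, he⟩ := eq_mul_of_cl_eq (add_PP_ne_zero hXE (one_mem _)) hZ0 hcl
  rw [hs₁] at he
  have hb1 : b = 1 := by
    by_contra hne2
    apply hXE
    have h1b : 1 - b ≠ 0 := sub_ne_zero.2 (Ne.symm hne2)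
    have : X = (b - sig Ψ hΨ x₀ 1) / (1 - b) := by
      field_simp
      linear_combination he
    rw [this]
    exact div_mem (sub_mem hb hmem) (sub_mem (one_mem _) hb)
  rw [hb1] at he
  linear_combination he

include hΨ' hrank hx₀ in
lemma sig_add {a b : K} (ha : a ∈ PP K p) (hb : b ∈ PP K p) :
    sig Ψ hΨ x₀ (a + b) = sig Ψ hΨ x₀ a + sig Ψ hΨ x₀ b := by
  have h := tau0_add_sig hΨ hΨ' hrank hx₀ (add_PP_not_PP hx₀ ha) hb
  have h2 : x₀ + a + b = x₀ + (a + b) := by ring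
  rw [h2] at h
  unfold sig at *
  rw [h]
  ring

lemma sig_zero : sig Ψ hΨ x₀ 0 = 0 := by
  unfold sig
  rw [add_zero, sub_self]

include hΨ' hrank hx₀ in
lemma sig_surj {c : L} (hc : c ∈ PP L p) (hc0 : c ≠ 0) :
    ∃ a ∈ PP K p, sig Ψ hΨ x₀ a = c := by
  obtain ⟨hX0, hX, hX1⟩ := tau0_spec hΨ hx₀
  have hx₀0 : x₀ ≠ 0 := fun h => hx₀ (by rw [h]; exact zero_mem _)
  set X := tau0 Ψ hΨ x₀ with hXdef
  have hXE : X ∉ PP L p := not_PP_of_lift hx₀ hX0 hX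
  have hXs : cl p x₀ = Ψ.symm (cl p X) := by
    rw [hX, Ψ.symm_apply_apply]
  obtain ⟨t₀, ht₀, ht₀0, hn, hf⟩ := hΨ' X hXE c hc hc0 x₀ hx₀0 hXs
  have hf' : Ψ.symm (cl p (X + c)) = cl p (x₀ + t₀) := hf
  refine ⟨t₀, ht₀, ?_⟩
  have hs₁ := tau0_add_sig hΨ hΨ' hrank hx₀ hx₀ ht₀
  obtain ⟨hZ0, hZ, -⟩ := tau0_spec hΨ (add_PP_not_PP hx₀ ht₀)
  have hcl : cl p (X + c) = cl p (tau0 Ψ hΨ (x₀ + t₀)) := by
    rw [hZ, ← hf', Ψ.apply_symm_apply]
  obtain ⟨b, hb, hb0, he⟩ := eq_mul_of_cl_eq (add_PP_ne_zero hXE hc) hZ0 hcl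
  rw [hs₁] at he
  obtain ⟨hmem, hne⟩ := sig_mem hΨ hΨ' hrank hx₀ ht₀ ht₀0
  have hb1 : b = 1 := by
    by_contra hne2
    apply hXE
    have h1b : 1 - b ≠ 0 := sub_ne_zero.2 (Ne.symm hne2)
    have : X = (b * c - sig Ψ hΨ x₀ t₀) / (1 - b) := by
      field_simp
      linear_combination he
    rw [this]
    exact div_mem (sub_mem (mul_mem hb hc) hmem) (sub_mem (one_mem _) hb)
  rw [hb1] at he
  linear_combination he

open scoped Classical in
/-- The field isomorphism as a function. -/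
noncomputable def tauF (Ψ : KOne K p ≃ₗ[ZMod p] KOne L p) (hΨ : LineProp (fun a => Ψ a)) (x₀ x : K) : L :=
  if x ∈ PP K p then sig Ψ hΨ x₀ x else tau0 Ψ hΨ x

lemma tauF_of_PP {x : K} (h : x ∈ PP K p) : tauF Ψ hΨ x₀ x = sig Ψ hΨ x₀ x := if_pos h

lemma tauF_of_not {x : K} (h : x ∉ PP K p) : tauF Ψ hΨ x₀ x = tau0 Ψ hΨ x := if_neg h

include hΨ' hrank hx₀ in
lemma tauF_spec {x : K} (hx0 : x ≠ 0) :
    tauF Ψ hΨ x₀ x ≠ 0 ∧ cl p (tauF Ψ hΨ x₀ x) = Ψ (cl p x) := by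
  by_cases h : x ∈ PP K p
  · rw [tauF_of_PP hΨ h]
    obtain ⟨h1, h2⟩ := sig_mem hΨ hΨ' hrank hx₀ h hx0
    refine ⟨h2, ?_⟩
    rw [(cl_eq_zero_iff h2).2 h1, (cl_eq_zero_iff hx0).2 h, map_zero]
  · rw [tauF_of_not hΨ h]
    obtain ⟨h1, h2, -⟩ := tau0_spec hΨ h
    exact ⟨h1, h2⟩

include hΨ' hrank hx₀ in
lemma tauF_add (u v : K) : tauF Ψ hΨ x₀ (u + v) = tauF Ψ hΨ x₀ u + tauF Ψ hΨ x₀ v := by
  by_cases hu : u ∈ PP K p
  · by_cases hv : v ∈ PP K p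
    · rw [tauF_of_PP hΨ hu, tauF_of_PP hΨ hv, tauF_of_PP hΨ (add_mem hu hv)]
      exact sig_add hΨ hΨ' hrank hx₀ hu hv
    · have h1 : u + v ∉ PP K p := by
        rw [add_comm]
        exact add_PP_not_PP hv hu
      rw [tauF_of_PP hΨ hu, tauF_of_not hΨ hv, tauF_of_not hΨ h1, add_comm u v]
      rw [tau0_add_sig hΨ hΨ' hrank hx₀ hv hu]
      ring
  · by_cases hv : v ∈ PP K p
    · rw [tauF_of_not hΨ hu, tauF_of_PP hΨ hv, tauF_of_not hΨ (add_PP_not_PP hu hv)]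
      exact tau0_add_sig hΨ hΨ' hrank hx₀ hu hv
    · rw [tauF_of_not hΨ hu, tauF_of_not hΨ hv]
      by_cases hind : Ind p u v
      · rw [tauF_of_not hΨ hind.add_not_PP]
        exact tau0_add hΨ hΨ' hu hind
      · unfold Ind at hind
        push Not at hind
        obtain ⟨a, ha, b, hb, hab⟩ := hind
        by_cases hbm : b = -1
        · -- `u + v ∈ E`
          have h1 : u + v = a := by
            rw [hab, hbm]
            ring
          rw [h1, tauF_of_PP hΨ ha]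
          have h2 : v = -u + a := by rw [hab, hbm]; ring
          have hnu : -u ∉ PP K p := fun h => hu (by simpa using neg_mem h)
          rw [h2, tau0_add_sig hΨ hΨ' hrank hx₀ hnu ha,
            tau0_neg hΨ hΨ' hu (exists_ind hrank u)]
          ring
        · -- a third element
          obtain ⟨q, hq⟩ := exists_ind hrank u
          have hqv : Ind p v q := by
            intro c hc d hd heq
            apply hq (c + d * a) (add_mem hc (mul_mem hd ha)) (d * b) (mul_mem hd hb)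
            rw [heq, hab]
            ring
          have huq : u + q ∉ PP K p := hq.add_not_PP
          have hmix : Ind p (u + q) (v + -q) := by
            intro c hc d hd heq
            have h1d : 1 + d ≠ 0 := by
              intro h0
              have hd1 : d = -1 := by linear_combination h0
              have hb1 : (b + 1) * u = c - a := by
                rw [hd1, hab] at heq
                linear_combination heq
              have hb10 : b + 1 ≠ 0 := fun h0 => hbm (by linear_combination h0)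
              apply hu
              have : u = (c - a) / (b + 1) := by
                field_simp
                linear_combination hb1
              rw [this]
              exact div_mem (sub_mem hc ha) (add_mem hb (one_mem _))
            apply hq ((a - c) / (1 + d)) (div_mem (sub_mem ha hc) (add_mem (one_mem _) hd))
              ((b - d) / (1 + d)) (div_mem (sub_mem hb hd) (add_mem (one_mem _) hd))
            field_simp
            rw [hab] at heq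
            linear_combination -heq
          have hsum : u + v = u + q + (v + -q) := by ring
          have hnq : q ∉ PP K p := hq.not_PP_right
          rw [hsum, tauF_of_not hΨ hmix.add_not_PP, tau0_add hΨ hΨ' huq hmix,
            tau0_add hΨ hΨ' hu hq, tau0_add hΨ hΨ' hv hqv.neg_right,
            tau0_neg hΨ hΨ' hnq (exists_ind hrank q)]
          ring

include hΨ' hrank hx₀ in
lemma tauF_one : tauF Ψ hΨ x₀ 1 = 1 := by
  rw [tauF_of_PP hΨ (one_mem _)]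
  exact sig_one hΨ hΨ' hrank hx₀

lemma tauF_zero : tauF Ψ hΨ x₀ 0 = 0 := by
  rw [tauF_of_PP hΨ (zero_mem _)]
  exact sig_zero hΨ

include hΨ' hrank hx₀ in
lemma tauF_mul_const {g u₁ u₂ : K} (hg : g ≠ 0) (hu₁ : u₁ ≠ 0) (hu₂ : u₂ ≠ 0)
    (hE : u₂ / u₁ ∉ PP K p) {c₁ c₂ : L}
    (h₁ : tauF Ψ hΨ x₀ (g * u₁) = c₁ * (tauF Ψ hΨ x₀ g * tauF Ψ hΨ x₀ u₁))
    (h₂ : tauF Ψ hΨ x₀ (g * u₂) = c₂ * (tauF Ψ hΨ x₀ g * tauF Ψ hΨ x₀ u₂))
    (hc₁ : c₁ ∈ PP L p) (hc₂ : c₂ ∈ PP L p) : c₁ = c₂ := by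
  have hu₁₂ : u₁ + u₂ ≠ 0 := by
    intro h0
    apply hE
    have : u₂ / u₁ = -1 := by
      have : u₂ = -u₁ := by linear_combination h0
      rw [this]
      field_simp
    rw [this]
    exact neg_mem (one_mem _)
  obtain ⟨hg0, hgc⟩ := tauF_spec hΨ hΨ' hrank hx₀ hg
  obtain ⟨h10, h1c⟩ := tauF_spec hΨ hΨ' hrank hx₀ hu₁
  obtain ⟨h20, h2c⟩ := tauF_spec hΨ hΨ' hrank hx₀ hu₂
  obtain ⟨h30, h3c⟩ := tauF_spec hΨ hΨ' hrank hx₀ hu₁₂
  obtain ⟨h40, h4c⟩ := tauF_spec hΨ hΨ' hrank hx₀ (mul_ne_zero hg hu₁₂)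
  have hprod : cl p (tauF Ψ hΨ x₀ g * tauF Ψ hΨ x₀ (u₁ + u₂)) =
      cl p (tauF Ψ hΨ x₀ (g * (u₁ + u₂))) := by
    rw [cl_mul hg0 h30, hgc, h3c, h4c, cl_mul hg hu₁₂, map_add]
  obtain ⟨c₃, hc₃, hc₃0, he₃⟩ := eq_mul_of_cl_eq (mul_ne_zero hg0 h30) h40 hprod
  have hadd : tauF Ψ hΨ x₀ (g * (u₁ + u₂)) =
      tauF Ψ hΨ x₀ (g * u₁) + tauF Ψ hΨ x₀ (g * u₂) := by
    rw [mul_add]
    exact tauF_add hΨ hΨ' hrank hx₀ _ _
  have hadd2 := tauF_add hΨ hΨ' hrank hx₀ u₁ u₂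
  rw [hadd2] at he₃
  rw [he₃, h₁, h₂] at hadd
  -- cancel `τ g`
  have hrel : (c₃ - c₁) * tauF Ψ hΨ x₀ u₁ + (c₃ - c₂) * tauF Ψ hΨ x₀ u₂ = 0 := by
    apply mul_left_cancel₀ hg0
    linear_combination hadd
  have hneq : cl p (tauF Ψ hΨ x₀ u₁) ≠ cl p (tauF Ψ hΨ x₀ u₂) := by
    rw [h1c, h2c]
    intro h
    have h5 : cl p u₁ = cl p u₂ := Ψ.injective h
    exact hE ((cl_eq_iff hu₂ hu₁).1 h5.symm)
  have h13 : c₃ = c₂ := by
    by_contra hne
    have h6 : c₃ - c₂ ≠ 0 := sub_ne_zero.2 hne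
    apply hneq
    have h7 : tauF Ψ hΨ x₀ u₂ = (-(c₃ - c₁) / (c₃ - c₂)) * tauF Ψ hΨ x₀ u₁ := by
      field_simp
      linear_combination hrel
    have h8 : -(c₃ - c₁) / (c₃ - c₂) ∈ PP L p :=
      div_mem (neg_mem (sub_mem hc₃ hc₁)) (sub_mem hc₃ hc₂)
    have h9 : -(c₃ - c₁) / (c₃ - c₂) ≠ 0 := by
      intro h0
      rw [h7, h0, zero_mul] at h20
      exact h20 rfl
    rw [h7, cl_PP_mul h8 h9 h10]
  have h14 : c₃ = c₁ := by
    rw [h13, sub_self, zero_mul, add_zero] at hrel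
    rcases mul_eq_zero.1 hrel with h | h
    · rw [h13]; exact (sub_eq_zero.1 h)
    · exact absurd h h10
  rw [← h14, h13]

include hΨ' hrank hx₀ in
lemma tauF_mul (g u : K) : tauF Ψ hΨ x₀ (g * u) = tauF Ψ hΨ x₀ g * tauF Ψ hΨ x₀ u := by
  by_cases hg : g = 0
  · rw [hg, zero_mul, tauF_zero hΨ, zero_mul]
  by_cases hu : u = 0
  · rw [hu, mul_zero, tauF_zero hΨ, mul_zero]
  obtain ⟨hg0, hgc⟩ := tauF_spec hΨ hΨ' hrank hx₀ hg
  have hgen : ∀ v : K, v ≠ 0 → ∃ c ∈ PP L p,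
      tauF Ψ hΨ x₀ (g * v) = c * (tauF Ψ hΨ x₀ g * tauF Ψ hΨ x₀ v) := by
    intro v hv
    obtain ⟨h10, h1c⟩ := tauF_spec hΨ hΨ' hrank hx₀ hv
    obtain ⟨h40, h4c⟩ := tauF_spec hΨ hΨ' hrank hx₀ (mul_ne_zero hg hv)
    have hprod : cl p (tauF Ψ hΨ x₀ g * tauF Ψ hΨ x₀ v) = cl p (tauF Ψ hΨ x₀ (g * v)) := by
      rw [cl_mul hg0 h10, hgc, h1c, h4c, cl_mul hg hv, map_add]
    obtain ⟨c, hc, -, he⟩ := eq_mul_of_cl_eq (mul_ne_zero hg0 h10) h40 hprod
    exact ⟨c, hc, he⟩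
  have hone : ∀ c ∈ PP L p,
      tauF Ψ hΨ x₀ (g * 1) = c * (tauF Ψ hΨ x₀ g * tauF Ψ hΨ x₀ 1) → c = 1 := by
    intro c _ h
    rw [mul_one, tauF_one hΨ hΨ' hrank hx₀, mul_one] at h
    apply mul_right_cancel₀ hg0
    rw [one_mul]
    exact h.symm
  -- for `v ∉ E`
  have hnot : ∀ v : K, v ∉ PP K p →
      tauF Ψ hΨ x₀ (g * v) = tauF Ψ hΨ x₀ g * tauF Ψ hΨ x₀ v := by
    intro v hv
    have hv0 : v ≠ 0 := fun h => hv (by rw [h]; exact zero_mem _)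
    obtain ⟨c, hc, he⟩ := hgen v hv0
    obtain ⟨c₁, hc₁, he₁⟩ := hgen 1 one_ne_zero
    have hE : v / 1 ∉ PP K p := by rwa [div_one]
    have h1 := tauF_mul_const hΨ hΨ' hrank hx₀ hg one_ne_zero hv0 hE he₁ he hc₁ hc
    rw [hone c₁ hc₁ he₁] at h1
    rw [he, ← h1, one_mul]
  by_cases huE : u ∈ PP K p
  · obtain ⟨c, hc, he⟩ := hgen u hu
    have hE : x₀ / u ∉ PP K p := by
      intro h
      apply hx₀
      have : x₀ = x₀ / u * u := by field_simp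
      rw [this]
      exact mul_mem h huE
    have hx₀0 : x₀ ≠ 0 := fun h => hx₀ (by rw [h]; exact zero_mem _)
    have he₀ := hnot x₀ hx₀
    have h1 := tauF_mul_const hΨ hΨ' hrank hx₀ hg hu hx₀0 hE he (c₂ := 1)
      (by rw [one_mul]; exact he₀) hc (one_mem _)
    rw [he, h1, one_mul]
  · exact hnot u huE

include hΨ' hrank hx₀ in
lemma tauF_surj : Function.Surjective (tauF Ψ hΨ x₀) := by
  intro R
  by_cases hR : R = 0
  · exact ⟨0, by rw [hR, tauF_zero hΨ]⟩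
  obtain ⟨u, hu, huc⟩ := exists_cl (Ψ.symm (cl p R))
  have hcl : Ψ (cl p u) = cl p R := by
    rw [huc, Ψ.apply_symm_apply]
  obtain ⟨h10, h1c⟩ := tauF_spec hΨ hΨ' hrank hx₀ hu
  obtain ⟨c, hc, hc0, he⟩ := eq_mul_of_cl_eq h10 hR (h1c.trans hcl)
  obtain ⟨a, ha, hac⟩ := sig_surj hΨ hΨ' hrank hx₀ hc hc0
  refine ⟨a * u, ?_⟩
  rw [tauF_mul hΨ hΨ' hrank hx₀, tauF_of_PP hΨ ha, hac, he]

end Tau

/-- The fundamental theorem in the form needed. -/
theorem exists_ringEquiv (hΨ : LineProp (fun a => Ψ a)) (hΨ' : LineProp (fun a => Ψ.symm a))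
    (hrank : ∃ x y : K, x ≠ 0 ∧ y ≠ 0 ∧ ¬ Perp (cl p x) (cl p y)) :
    ∃ α : K ≃+* L, ∀ u : K, u ≠ 0 → Ψ (cl p u) = cl p (α u) := by
  obtain ⟨x₀, y₀, hx₀, hy₀, hxy₀⟩ := id hrank
  have hx₀E : x₀ ∉ PP K p := not_PP_of_not_perp_left hx₀ hxy₀
  let f : K →+* L :=
    { toFun := tauF Ψ hΨ x₀
      map_one' := tauF_one hΨ hΨ' hrank hx₀E
      map_mul' := tauF_mul hΨ hΨ' hrank hx₀E
      map_zero' := tauF_zero hΨ
      map_add' := tauF_add hΨ hΨ' hrank hx₀E }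
  have hbij : Function.Bijective f := ⟨f.injective, tauF_surj hΨ hΨ' hrank hx₀E⟩
  refine ⟨RingEquiv.ofBijective f hbij, fun u hu => ?_⟩
  exact (tauF_spec hΨ hΨ' hrank hx₀E hu).2.symm

end FTPG

end Crest.Agent.S0010Lib
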