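import Crest.Agent.S0010Lib.Classes

set_option autoImplicit false
set_option linter.unusedSectionVars false
set_option linter.style.haveILetI false

open Polynomial IntermediateField Crest.NumberTheoryR.MilnorK
open scoped TensorProduct

namespace Crest.Agent.S0010Lib

section Key

variable {F : Type*} [Field F] {p : ℕ} [hp : Fact p.Prime] [hc : CharP F p]

lemma der_pow_of_eq {D : Der F p} {u c : F} (h : D u = c * u) (n : ℕ) :
    D (u ^ n) = n * c * u ^ n := by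
  induction n with
  | zero => simp
  | succ k ih =>
    rw [pow_succ, Derivation.leibniz, ih, h, smul_eq_mul, smul_eq_mul]
    push_cast
    ring

lemma der_div_eq_zero {D : Der F p} {u h c : F} (hu : D u = c * u) (hh : D h = c * h) :
    D (u / h) = 0 := by
  rw [Derivation.leibniz_div, hu, hh, smul_eq_mul, smul_eq_mul, smul_eq_mul]
  have : h * (c * u) - u * (c * h) = 0 := by ring
  rw [this, mul_zero]

/-- The core computation with derivations.  -/
theorem key_core (D₁ D₂ : Der F p) {r w g a G v : F}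
    (hr0 : r ≠ 0) (hw0 : w ≠ 0) (hg0 : g ≠ 0) (ha0 : a ≠ 0) (hG0 : G ≠ 0) (hv0 : v ≠ 0)
    (hD₁r : D₁ r = r) (hD₂w : D₂ w = w)
    (hk₁ : ∀ m ∈ Ea (p := p) w, D₁ m = 0) (hk₂ : ∀ m ∈ Ea (p := p) r, D₂ m = 0)
    (hg : g ∈ Ea (p := p) w) (ha : a ∈ Ea (p := p) r)
    (hv : v * a = r * w) (hG : G ∈ Ea (p := p) v)
    (hdep : (D₁ (a * G) / (a * G)) * (D₂ (r * g) / (r * g)) =
      (D₂ (a * G) / (a * G)) * (D₁ (r * g) / (r * g)))
    (hκ0 : D₂ g ≠ 0) (hκ1 : D₂ g ≠ g) (hα0 : D₁ a ≠ 0) (hα1 : D₁ a ≠ a) :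
    (∃ (i : ℕ) (c : F), c ∈ PP F p ∧ c ≠ 0 ∧ a = c * r ^ i) ∨
    ∃ (e : ℕ) (t c : F), 0 < e ∧ e < p ∧ t ∈ PP F p ∧ t ≠ 0 ∧ c ∈ PP F p ∧ c ≠ 0 ∧
      r ^ e + t ≠ 0 ∧ w ^ e + c ≠ 0 ∧ a ^ e / (r ^ e + t) ∈ PP F p ∧
      g ^ e / (w ^ e + c) ∈ PP F p := by
  -- basic facts
  have hD₁w : D₁ w = 0 := hk₁ w (self_mem_Ea w)
  have hD₂r : D₂ r = 0 := hk₂ r (self_mem_Ea r)
  have hD₁g : D₁ g = 0 := hk₁ g hg
  have hD₂a : D₂ a = 0 := hk₂ a ha
  have hD₁r' : D₁ r ≠ 0 := by rw [hD₁r]; exact hr0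
  have hD₂w' : D₂ w ≠ 0 := by rw [hD₂w]; exact hw0
  -- the three logarithmic derivatives
  obtain ⟨κ, hκ⟩ : ∃ κ, κ = D₂ g / g := ⟨_, rfl⟩
  obtain ⟨α, hα⟩ : ∃ α, α = D₁ a / a := ⟨_, rfl⟩
  obtain ⟨τ, hτ⟩ : ∃ τ, τ = D₂ G / G := ⟨_, rfl⟩
  have hκg : D₂ g = κ * g := by rw [hκ]; field_simp
  have hαa : D₁ a = α * a := by rw [hα]; field_simp
  have hτG : D₂ G = τ * G := by rw [hτ]; field_simp
  have hκ00 : κ ≠ 0 := by
    rw [hκ]; exact div_ne_zero hκ0 hg0
  have hκ11 : κ ≠ 1 := by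
    intro h
    rw [hκg, h, one_mul] at hκ1
    exact hκ1 rfl
  have hα00 : α ≠ 0 := by
    rw [hα]; exact div_ne_zero hα0 ha0
  have hα11 : α ≠ 1 := by
    intro h
    rw [hαa, h, one_mul] at hα1
    exact hα1 rfl
  have hκmem : κ ∈ Ea (p := p) w := by
    rw [hκ]
    exact div_mem (der_mem_Ea D₂ (by rw [hD₂w]; exact self_mem_Ea w) hg) hg
  have hαmem : α ∈ Ea (p := p) r := by
    rw [hα]
    exact div_mem (der_mem_Ea D₁ (by rw [hD₁r]; exact self_mem_Ea r) ha) ha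
  -- derivatives of `v`
  have hD₂v : D₂ v = v := by
    have h := congrArg D₂ hv
    rw [Derivation.leibniz, Derivation.leibniz, hD₂a, hD₂r, hD₂w] at h
    simp only [smul_eq_mul, mul_zero, zero_add] at h
    have h2 : a * D₂ v = a * v := by rw [h, ← hv]; ring
    exact mul_left_cancel₀ ha0 h2
  have hD₁v : D₁ v = (1 - α) * v := by
    have h := congrArg D₁ hv
    rw [Derivation.leibniz, Derivation.leibniz, hαa, hD₁r, hD₁w] at h
    simp only [smul_eq_mul, mul_zero, add_zero] at h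
    have h2 : a * D₁ v = a * ((1 - α) * v) := by
      have h3 : w * r = v * a := by rw [hv]; ring
      linear_combination h + h3
    exact mul_left_cancel₀ ha0 h2
  -- the derivation killing `v`
  let D : Der F p := D₁ - (1 - α) • D₂
  have hDapp : ∀ u, D u = D₁ u - (1 - α) * D₂ u := fun u => by
    simp [D, Derivation.sub_apply, Derivation.smul_apply]
  have hDv : D v = 0 := by
    rw [hDapp, hD₁v, hD₂v]; ring
  have hDkill : ∀ m ∈ Ea (p := p) v, D m = 0 := fun m hm => der_eq_zero_of_mem_Ea D hDv hm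
  have hD₁G : D₁ G = (1 - α) * (τ * G) := by
    have := hDkill G hG
    rw [hDapp, hτG] at this
    linear_combination this
  have hτmem : τ ∈ Ea (p := p) v := by
    rw [hτ]
    exact div_mem (der_mem_Ea D₂ (by rw [hD₂v]; exact self_mem_Ea v) hG) hG
  -- the main equation
  have hmain : (α + (1 - α) * τ) * κ = τ := by
    have e1 : D₁ (a * G) / (a * G) = α + (1 - α) * τ := by
      rw [Derivation.leibniz, hD₁G, hαa]
      simp only [smul_eq_mul]
      field_simp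
      ring
    have e2 : D₂ (r * g) / (r * g) = κ := by
      rw [Derivation.leibniz, hD₂r, hκg]
      simp only [smul_eq_mul]
      field_simp
      ring
    have e3 : D₂ (a * G) / (a * G) = τ := by
      rw [Derivation.leibniz, hD₂a, hτG]
      simp only [smul_eq_mul]
      field_simp
      ring
    have e4 : D₁ (r * g) / (r * g) = 1 := by
      rw [Derivation.leibniz, hD₁r, hD₁g]
      simp only [smul_eq_mul]
      field_simp
      ring
    rw [e1, e2, e3, e4, mul_one] at hdep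
    exact hdep
  have hτ0 : τ ≠ 0 := by
    intro h0
    rw [h0] at hmain
    simp only [mul_zero, add_zero] at hmain
    exact (mul_ne_zero hα00 hκ00) hmain
  -- φ and ψ
  obtain ⟨φ, hφ⟩ : ∃ φ, φ = κ⁻¹ - 1 := ⟨_, rfl⟩
  obtain ⟨ψ, hψ⟩ : ∃ ψ, ψ = τ⁻¹ - 1 := ⟨_, rfl⟩
  have hφψ : φ = α * ψ := by
    rw [hφ, hψ]
    field_simp
    linear_combination -hmain
  have hφ0 : φ ≠ 0 := by
    rw [hφ]
    intro h
    apply hκ11
    have : κ⁻¹ = 1 := sub_eq_zero.1 h
    exact inv_eq_one.1 this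
  have hφmem : φ ∈ Ea (p := p) w := by
    rw [hφ]
    exact sub_mem (inv_mem hκmem) (one_mem _)
  have hψmem : ψ ∈ Ea (p := p) v := by
    rw [hψ]
    exact sub_mem (inv_mem hτmem) (one_mem _)
  -- differentiate `φ = α ψ`
  have hD₁φ : D₁ φ = 0 := hk₁ φ hφmem
  have hDψ : D ψ = 0 := hDkill ψ hψmem
  have hD₂α : D₂ α = 0 := hk₂ α hαmem
  have heq2 : -(1 - α) * D₂ φ = ψ * D₁ α := by
    have h := congrArg D hφψ
    rw [Derivation.leibniz, hDψ, hDapp φ, hDapp α, hD₁φ, hD₂α] at h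
    simp only [smul_eq_mul] at h
    linear_combination h
  -- the common constant ρ
  obtain ⟨ρ, hρ⟩ : ∃ ρ, ρ = D₂ φ / φ := ⟨_, rfl⟩
  have hρφ : D₂ φ = ρ * φ := by rw [hρ]; field_simp
  have hρw : ρ ∈ Ea (p := p) w := by
    rw [hρ]
    exact div_mem (der_mem_Ea D₂ (by rw [hD₂w]; exact self_mem_Ea w) hφmem) hφmem
  have h1α : 1 - α ≠ 0 := sub_ne_zero.2 (Ne.symm hα11)
  have hD₁αeq : D₁ α = -ρ * (α * (1 - α)) := by
    rw [hρφ, hφψ] at heq2
    have hψ0 : ψ ≠ 0 := by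
      intro h0
      rw [hφψ, h0, mul_zero] at hφ0
      exact hφ0 rfl
    apply mul_left_cancel₀ hψ0
    linear_combination -heq2
  have hρr : ρ ∈ Ea (p := p) r := by
    have : ρ = -(D₁ α) / (α * (1 - α)) := by
      rw [hD₁αeq]
      field_simp
    rw [this]
    refine div_mem (neg_mem (der_mem_Ea D₁ (by rw [hD₁r]; exact self_mem_Ea r) hαmem))
      (mul_mem hαmem (sub_mem (one_mem _) hαmem))
  have hρPP : ρ ∈ PP F p := mem_PP_of_der_eq_zero D₁ hD₁r' hρr (hk₁ ρ hρw)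
  -- first eigen-decomposition
  obtain ⟨j, hjlt, hρj, c, hcPP, hc0, hφc⟩ := eigen hD₂w hw0 hφmem hφ0 hρPP hρφ
  -- β
  obtain ⟨β, hβ⟩ : ∃ β, β = α / (1 - α) := ⟨_, rfl⟩
  have hβα : β * (1 - α) = α := by rw [hβ]; field_simp
  have hβ0 : β ≠ 0 := by
    rw [hβ]; exact div_ne_zero hα00 h1α
  have hβmem : β ∈ Ea (p := p) r := by
    rw [hβ]
    exact div_mem hαmem (sub_mem (one_mem _) hαmem)
  have hD₁β : D₁ β = -ρ * β := by
    rw [hβ, Derivation.leibniz_div]
    simp only [map_sub, Derivation.map_one_eq_zero, zero_sub, smul_eq_mul, hD₁αeq]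
    field_simp
    ring
  have hρneg : -ρ ∈ PP F p := neg_mem hρPP
  obtain ⟨e, helt, hρe, c', hc'PP, hc'0, hβc'⟩ := eigen hD₁r hr0 hβmem hβ0 hρneg hD₁β
  by_cases he : e = 0
  · -- degenerate case
    left
    have hρ0 : ρ = 0 := by
      rw [he] at hρe
      simpa using hρe
    have hD₁α0 : D₁ α = 0 := by rw [hD₁αeq, hρ0]; ring
    have hαPP : α ∈ PP F p := mem_PP_of_der_eq_zero D₁ hD₁r' hαmem hD₁α0
    obtain ⟨i, -, -, c'', hc''PP, hc''0, hac''⟩ := eigen hD₁r hr0 ha ha0 hαPP hαa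
    exact ⟨i, c'', hc''PP, hc''0, hac''⟩
  · -- main case
    right
    have he0 : 0 < e := Nat.pos_of_ne_zero he
    -- `j + e = p`
    have hje : j + e = p := by
      have h0 : ((j + e : ℕ) : F) = 0 := by
        push_cast
        rw [← hρj, ← hρe]
        ring
      have hdvd : p ∣ j + e := (natCast_eq_zero_iff _).1 h0
      obtain ⟨k, hk⟩ := hdvd
      have hk1 : k = 1 := by
        have hp0 := hp.out.pos
        have : k < 2 := by
          by_contra hcon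
          push Not at hcon
          have : p * 2 ≤ p * k := Nat.mul_le_mul_left p hcon
          omega
        have : k ≠ 0 := by
          rintro rfl
          omega
        omega
      rw [hk, hk1, mul_one]
    -- facts about `a`
    set t : F := c'⁻¹ with ht
    have htPP : t ∈ PP F p := inv_mem hc'PP
    have ht0 : t ≠ 0 := inv_ne_zero hc'0
    have h1β : (1 + β) * (1 - α) = 1 := by
      rw [add_mul, hβα]; ring
    have hh : r ^ e + t ≠ 0 := by
      intro h0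
      have : 1 + β = 0 := by
        rw [hβc']
        have h3 : r ^ e = -t := eq_neg_of_add_eq_zero_left h0
        rw [h3, ht]
        field_simp
        ring
      rw [this, zero_mul] at h1β
      exact zero_ne_one h1β
    have hα_h : α * (r ^ e + t) = r ^ e := by
      have h1 : r ^ e = β * t := by
        rw [hβc', ht]
        field_simp
      rw [h1]
      linear_combination (-t) * hβα
    have hDh : D₁ (r ^ e + t) = (e * α) * (r ^ e + t) := by
      rw [map_add, der_PP D₁ htPP, add_zero, der_pow_of_eq (c := 1) (by rw [hD₁r, one_mul])]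
      linear_combination (-(e : F)) * hα_h
    have hDae : D₁ (a ^ e) = (e * α) * a ^ e := der_pow_of_eq hαa e
    have hae : a ^ e / (r ^ e + t) ∈ PP F p := by
      refine mem_PP_of_der_eq_zero D₁ hD₁r' ?_ (der_div_eq_zero hDae hDh)
      exact div_mem (pow_mem ha _) (add_mem (pow_mem (self_mem_Ea r) _) (PP_mem_Ea r htPP))
    -- facts about `g`
    set c₂ : F := c * w ^ p with hc₂
    have hc₂PP : c₂ ∈ PP F p := mul_mem hcPP (pow_mem_PP w)
    have hc₂0 : c₂ ≠ 0 := mul_ne_zero hc0 (pow_ne_zero _ hw0)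
    have hφw : φ * w ^ e = c₂ := by
      rw [hφc, hc₂, ← hje, pow_add]
      ring
    have hκinv : κ⁻¹ = 1 + φ := by rw [hφ]; ring
    have hh₂eq : (w ^ e + c₂) * κ = w ^ e := by
      rw [← hφw]
      have : κ * (1 + φ) = 1 := by rw [← hκinv]; field_simp
      linear_combination (w ^ e) * this
    have hh₂ : w ^ e + c₂ ≠ 0 := by
      intro h0
      rw [h0, zero_mul] at hh₂eq
      exact (pow_ne_zero e hw0) hh₂eq.symm
    have hDh₂ : D₂ (w ^ e + c₂) = (e * κ) * (w ^ e + c₂) := by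
      rw [map_add, der_PP D₂ hc₂PP, add_zero, der_pow_of_eq (c := 1) (by rw [hD₂w, one_mul])]
      linear_combination (-(e : F)) * hh₂eq
    have hDge : D₂ (g ^ e) = (e * κ) * g ^ e := der_pow_of_eq hκg e
    have hge : g ^ e / (w ^ e + c₂) ∈ PP F p := by
      refine mem_PP_of_der_eq_zero D₂ hD₂w' ?_ (der_div_eq_zero hDge hDh₂)
      exact div_mem (pow_mem hg _) (add_mem (pow_mem (self_mem_Ea w) _) (PP_mem_Ea w hc₂PP))
    exact ⟨e, t, c₂, he0, helt, htPP, ht0, hc₂PP, hc₂0, hh, hh₂, hae, hge⟩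

/-- The key classification lemma, in terms of classes. -/
theorem key_lemma {r s z a y : F} (hr0 : r ≠ 0) (hs0 : s ≠ 0) (hz0 : z ≠ 0) (ha0 : a ≠ 0)
    (hy0 : y ≠ 0)
    (hrs : ¬ Perp (cl p r) (cl p s))
    (h1 : Perp (cl p z - cl p r) (cl p s - cl p r))
    (h2 : Perp (cl p a) (cl p r))
    (h3 : Perp (cl p y) (cl p z))
    (h4 : Perp (cl p y - cl p a) (cl p s - cl p a))
    (h5 : ¬ Perp (cl p z) (cl p r))
    (h6 : ¬ Perp (cl p z) (cl p s))
    (h7 : cl p a ≠ 0) (h8 : cl p a ≠ cl p r) :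
    (∃ i : ℕ, cl p a = i • cl p r) ∨
    ∃ (e : ℕ) (t c : F), 0 < e ∧ e < p ∧ t ∈ PP F p ∧ t ≠ 0 ∧ c ∈ PP F p ∧ c ≠ 0 ∧
      r ^ e + t ≠ 0 ∧ s ^ e + c * r ^ e ≠ 0 ∧ e • cl p a = cl p (r ^ e + t) ∧
      e • cl p z = cl p (s ^ e + c * r ^ e) := by
  obtain ⟨w, hw⟩ : ∃ w, w = s / r := ⟨_, rfl⟩
  obtain ⟨g, hg⟩ : ∃ g, g = z / r := ⟨_, rfl⟩
  obtain ⟨v, hv⟩ : ∃ v, v = s / a := ⟨_, rfl⟩
  obtain ⟨G, hG⟩ : ∃ G, G = y / a := ⟨_, rfl⟩
  have hw0 : w ≠ 0 := by rw [hw]; exact div_ne_zero hs0 hr0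
  have hg0 : g ≠ 0 := by rw [hg]; exact div_ne_zero hz0 hr0
  have hv0 : v ≠ 0 := by rw [hv]; exact div_ne_zero hs0 ha0
  have hG0 : G ≠ 0 := by rw [hG]; exact div_ne_zero hy0 ha0
  have clw : cl p w = cl p s - cl p r := by rw [hw, cl_div hs0 hr0]
  have clg : cl p g = cl p z - cl p r := by rw [hg, cl_div hz0 hr0]
  have clv : cl p v = cl p s - cl p a := by rw [hv, cl_div hs0 ha0]
  have clG : cl p G = cl p y - cl p a := by rw [hG, cl_div hy0 ha0]
  have hsrw : s = r * w := by rw [hw]; field_simp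
  have hzrg : z = r * g := by rw [hg]; field_simp
  have hyaG : y = a * G := by rw [hG]; field_simp
  have hvaeq : v * a = r * w := by rw [hv, ← hsrw]; field_simp
  have hrw : ¬ Perp (cl p r) (cl p w) := by
    intro h
    apply hrs
    rw [clw] at h
    have := h.add_right (perp_self (cl p r))
    simpa using this
  have hrE : r ∉ PP F p := by
    intro h
    apply hrs
    rw [(cl_eq_zero_iff hr0).2 h]
    exact perp_zero_left _
  have hwE : w ∉ PP F p := by
    intro h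
    apply hrw
    rw [(cl_eq_zero_iff hw0).2 h]
    exact perp_zero_right _
  have hrnw : r ∉ Ea (p := p) w := fun h => hrw ((perp_cl_iff hwE hw0 hr0).2 h).symm
  have hwnr : w ∉ Ea (p := p) r := fun h => hrw ((perp_cl_iff hrE hr0 hw0).2 h)
  obtain ⟨D₁, hk₁, hD₁r⟩ := exists_der_self _ hrnw
  obtain ⟨D₂, hk₂, hD₂w⟩ := exists_der_self _ hwnr
  have hgm : g ∈ Ea (p := p) w := by
    refine (perp_cl_iff hwE hw0 hg0).1 ?_
    rw [clg, clw]
    exact h1.symm
  have ham : a ∈ Ea (p := p) r := (perp_cl_iff hrE hr0 ha0).1 h2.symm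
  have hD₂a : D₂ a = 0 := hk₂ a ham
  have hD₂r : D₂ r = 0 := hk₂ r (self_mem_Ea r)
  have hD₂v : D₂ v = v := by
    have h := congrArg D₂ hvaeq
    rw [Derivation.leibniz, Derivation.leibniz, hD₂a, hD₂r, hD₂w] at h
    simp only [smul_eq_mul, mul_zero, zero_add] at h
    have h2 : a * D₂ v = a * v := by rw [h, ← hvaeq]; ring
    exact mul_left_cancel₀ ha0 h2
  have hvE : v ∉ PP F p := by
    intro h
    have := der_PP D₂ h
    rw [hD₂v] at this
    exact hv0 this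
  have hGm : G ∈ Ea (p := p) v := by
    refine (perp_cl_iff hvE hv0 hG0).1 ?_
    rw [clG, clv]
    exact h4.symm
  have hdep : (D₁ (a * G) / (a * G)) * (D₂ (r * g) / (r * g)) =
      (D₂ (a * G) / (a * G)) * (D₁ (r * g) / (r * g)) := by
    have := h3 D₁ D₂
    rw [dl_cl D₁ hy0, dl_cl D₂ hz0, dl_cl D₂ hy0, dl_cl D₁ hz0, hyaG, hzrg] at this
    exact this
  have hD₂w' : D₂ w ≠ 0 := by rw [hD₂w]; exact hw0
  have hD₁r' : D₁ r ≠ 0 := by rw [hD₁r]; exact hr0
  have hκ0 : D₂ g ≠ 0 := by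
    intro h
    have hPP := mem_PP_of_der_eq_zero D₂ hD₂w' hgm h
    apply h5
    have : cl p z = cl p r := by
      have h9 := (cl_eq_zero_iff hg0).2 hPP
      rw [clg] at h9
      exact sub_eq_zero.1 h9
    rw [this]
    exact perp_self _
  have hκ1 : D₂ g ≠ g := by
    intro h
    have h10 : D₂ (g / w) = 0 :=
      der_div_eq_zero (c := 1) (by rw [h, one_mul]) (by rw [hD₂w, one_mul])
    have hPP := mem_PP_of_der_eq_zero D₂ hD₂w' (div_mem hgm (self_mem_Ea w)) h10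
    apply h6
    have h11 : cl p g = cl p w := (cl_eq_iff hg0 hw0).2 hPP
    rw [clg, clw] at h11
    have : cl p z = cl p s := by
      have := congrArg (· + cl p r) h11
      simpa using this
    rw [this]
    exact perp_self _
  have hα0 : D₁ a ≠ 0 := by
    intro h
    exact h7 ((cl_eq_zero_iff ha0).2 (mem_PP_of_der_eq_zero D₁ hD₁r' ham h))
  have hα1 : D₁ a ≠ a := by
    intro h
    have h10 : D₁ (a / r) = 0 :=
      der_div_eq_zero (c := 1) (by rw [h, one_mul]) (by rw [hD₁r, one_mul])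
    have hPP := mem_PP_of_der_eq_zero D₁ hD₁r' (div_mem ham (self_mem_Ea r)) h10
    exact h8 ((cl_eq_iff ha0 hr0).2 hPP)
  rcases key_core D₁ D₂ hr0 hw0 hg0 ha0 hG0 hv0 hD₁r hD₂w hk₁ hk₂ hgm ham hvaeq hGm hdep
    hκ0 hκ1 hα0 hα1 with ⟨i, c, hc, hc0, hac⟩ | ⟨e, t, c, he0, hep, ht, ht0, hc, hc0, hh, hh₂, hae, hge⟩
  · left
    refine ⟨i, ?_⟩
    rw [hac, cl_PP_mul hc hc0 (pow_ne_zero _ hr0), cl_pow hr0]
  · right
    have hzz : s ^ e + c * r ^ e = r ^ e * (w ^ e + c) := by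
      rw [hsrw, mul_pow]
      ring
    refine ⟨e, t, c, he0, hep, ht, ht0, hc, hc0, hh, ?_, ?_, ?_⟩
    · rw [hzz]
      exact mul_ne_zero (pow_ne_zero _ hr0) hh₂
    · rw [← cl_pow ha0]
      exact (cl_eq_iff (pow_ne_zero _ ha0) hh).2 hae
    · have h12 : e • cl p g = cl p (w ^ e + c) := by
        rw [← cl_pow hg0]
        exact (cl_eq_iff (pow_ne_zero _ hg0) hh₂).2 hge
      rw [hzz, cl_mul (pow_ne_zero _ hr0) hh₂, ← h12, cl_pow hr0, hzrg, cl_mul hr0 hg0, nsmul_add]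

end Key

end Crest.Agent.S0010Lib
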