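import Crest.Agent.S0010Lib.Rank

set_option autoImplicit false
set_option linter.unusedSectionVars false
set_option linter.style.haveILetI false
set_option linter.unusedVariables false

open Polynomial IntermediateField Crest.NumberTheoryR.MilnorK

namespace Crest.Agent.S0010Lib

section Perfect

variable {L : Type*} [Field L] {p : ℕ} [hp : Fact p.Prime] [hL : CharP L p]

/-- A member of a transcendence family is not a `p`-th power in the adjoined field. -/
theorem not_pow_of_basis {l : Type*} [Field l] [Algebra l L] {T : Set L}
    (hT : AlgebraicIndependent l ((↑) : T → L)) {c : L} (hc : c ∈ T)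
    (M : IntermediateField l L) (hM : M = IntermediateField.adjoin l T)
    (u : M) (hcM : c ∈ M) : (u ^ p : M) ≠ ⟨c, hcM⟩ := by
  intro h
  have hTM : ∀ t ∈ T, t ∈ M := fun t ht => hM ▸ IntermediateField.subset_adjoin l T ht
  have hCh : CharP M p := (RingHom.charP_iff (algebraMap M L) (algebraMap M L).injective p).2 hL
  let v : T → M := fun t => ⟨t, hTM t t.2⟩
  have hv : AlgebraicIndependent l v := AlgebraicIndependent.of_comp M.val hT
  have htop : IntermediateField.adjoin l (Set.range v) = ⊤ := by
    rw [eq_top_iff]
    rintro x -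
    have h1 : (IntermediateField.adjoin l (Set.range v)).map M.val = M := by
      rw [IntermediateField.adjoin_map]
      conv_rhs => rw [hM]
      congr 1
      ext y
      constructor
      · rintro ⟨_, ⟨t, rfl⟩, rfl⟩
        exact t.2
      · intro hy
        exact ⟨_, ⟨⟨y, hy⟩, rfl⟩, rfl⟩
    have h2 : (x : L) ∈ (IntermediateField.adjoin l (Set.range v)).map M.val := by
      rw [h1]
      exact x.2
    obtain ⟨y, hy, hyx⟩ := h2
    have : y = x := Subtype.ext hyx
    exact this ▸ hy
  have hsep : Algebra.IsSeparable (IntermediateField.adjoin l (Set.range v)) M := by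
    constructor
    intro x
    have hx : x ∈ IntermediateField.adjoin l (Set.range v) := by
      rw [htop]
      trivial
    exact (isSeparable_algebraMap (F := IntermediateField.adjoin l (Set.range v)) (K := M)
      ⟨x, hx⟩)
  obtain ⟨D, hD, -⟩ := exists_derivation_of_basis hv ⟨c, hc⟩
  have h3 : D (u ^ p) = 0 := by
    rw [Derivation.leibniz_pow, nsmul_eq_mul, CharP.cast_eq_zero M p, zero_mul]
  have h4 : v ⟨c, hc⟩ = ⟨c, hcM⟩ := rfl
  rw [h4] at hD
  have h5 := (congrArg D h).symm.trans h3
  rw [hD] at h5
  exact one_ne_zero h5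

/-- An element with `p^m`-th roots for all `m` is in the algebraically closed base of a finitely
generated extension. -/
theorem mem_of_forall_pow (l : Subfield L) [IsAlgClosed l]
    (hfg : ∃ s : Finset L, Subfield.closure ((l : Set L) ∪ (s : Set L)) = ⊤)
    {c : L} (hc : ∀ m : ℕ, ∃ b : L, b ^ (p ^ m) = c) : c ∈ l := by
  classical
  by_contra hcl
  obtain ⟨s, hs⟩ := hfg
  have htr : Transcendental l c := by
    intro halg
    have hint : IsIntegral l c := halg.isIntegral
    have hirr := minpoly.irreducible hint
    have hdeg := IsAlgClosed.degree_eq_one_of_irreducible l hirr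
    obtain ⟨y, hy⟩ := minpoly.mem_range_of_degree_eq_one l c hdeg
    apply hcl
    rw [← hy]
    exact y.2
  have hind : AlgebraicIndepOn l id ({c} : Set L) := by
    rw [AlgebraicIndepOn, algebraicIndependent_singleton_iff (⟨c, rfl⟩ : ({c} : Set L))]
    exact htr
  obtain ⟨T, hcT, hT⟩ := exists_isTranscendenceBasis_superset hind
  have hcT' : c ∈ T := hcT rfl
  have halg := hT.isAlgebraic_field
  rw [Subtype.range_coe] at halg
  set M := IntermediateField.adjoin l T with hM
  have hCh : ExpChar M p := by
    have : CharP M p := (RingHom.charP_iff (algebraMap M L) (algebraMap M L).injective p).2 hL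
    exact ExpChar.prime hp.out
  have hCh2 : ExpChar L p := ExpChar.prime hp.out
  -- finite-dimensionality
  have hfin : FiniteDimensional M L := by
    have h1 : FiniteDimensional M (IntermediateField.adjoin M (s : Set L)) :=
      IntermediateField.finiteDimensional_adjoin fun x _ => (Algebra.IsAlgebraic.isAlgebraic x).isIntegral
    have h2 : IntermediateField.adjoin M (s : Set L) = ⊤ := by
      apply IntermediateField.toSubfield_injective
      rw [IntermediateField.top_toSubfield, eq_top_iff, ← hs]
      rw [Subfield.closure_le]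
      rintro x (hx | hx)
      · have : x = algebraMap M L (algebraMap l M ⟨x, hx⟩) := rfl
        rw [this]
        exact (IntermediateField.adjoin M (s : Set L)).algebraMap_mem _
      · exact IntermediateField.subset_adjoin M (s : Set L) hx
    rw [h2] at h1
    exact (IntermediateField.topEquiv (F := M) (E := L)).toLinearEquiv.finiteDimensional
  set n := Module.finrank M L with hn
  have hlt : n < p ^ n := Nat.lt_pow_self hp.out.one_lt
  obtain ⟨b, hb⟩ := hc n
  have hnat : (minpoly M b).natSepDegree = 1 := by
    rw [minpoly.natSepDegree_eq_one_iff_pow_mem p]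
    refine ⟨n, ⟨⟨c, IntermediateField.subset_adjoin l T hcT'⟩, ?_⟩⟩
    rw [hb]
    rfl
  obtain ⟨e, y, he⟩ := (minpoly.natSepDegree_eq_one_iff_eq_X_pow_sub_C p).1 hnat
  have hdeg : (minpoly M b).natDegree ≤ n := minpoly.natDegree_le b
  rw [he, natDegree_X_pow_sub_C] at hdeg
  have hen : e < n := by
    by_contra hcon
    push Not at hcon
    have : p ^ n ≤ p ^ e := Nat.pow_le_pow_right hp.out.pos hcon
    omega
  have hby : b ^ (p ^ e) = algebraMap M L y := by
    have := minpoly.aeval M b
    rw [he] at this
    simpa [sub_eq_zero] using this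
  obtain ⟨f, hf⟩ : ∃ f, n = e + (f + 1) := ⟨n - e - 1, by omega⟩
  have hc' : (y ^ (p ^ f)) ^ p = ⟨c, IntermediateField.subset_adjoin l T hcT'⟩ := by
    apply Subtype.ext
    have h1 : ((y : L)) = b ^ p ^ e := hby.symm
    change (((y : L) ^ p ^ f) ^ p) = c
    rw [h1, ← hb, hf, pow_add, pow_mul, pow_succ p f, pow_mul]
  exact not_pow_of_basis hT.1 hcT' M hM _ _ hc'

end Perfect

end Crest.Agent.S0010Lib
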