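import Crest.Agent.S0010Lib.Assemble

set_option autoImplicit false
set_option linter.unusedSectionVars false
set_option linter.style.haveILetI false
set_option linter.unusedVariables false

open Polynomial IntermediateField Crest.NumberTheoryR.MilnorK
open scoped TensorProduct KaehlerDifferential

namespace Crest.Agent.S0010Lib

section Deriv

open scoped IntermediateField.algebraAdjoinAdjoin in
/-- Derivations dual to a separating transcendence basis. -/
theorem exists_derivation_of_basis {k K : Type*} [Field k] [Field K] [Algebra k K] {ι : Type*}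
    {v : ι → K} (hb : AlgebraicIndependent k v)
    [Algebra.IsSeparable (IntermediateField.adjoin k (Set.range v)) K] (i : ι) :
    ∃ D : Derivation k K K, D (v i) = 1 ∧ ∀ j, j ≠ i → D (v j) = 0 := by
  classical
  have e1 : Algebra.FormallyEtale (Algebra.adjoin k (Set.range v))
      (IntermediateField.adjoin k (Set.range v)) := .of_isLocalization (nonZeroDivisors _)
  have e2 : Algebra.FormallyEtale (IntermediateField.adjoin k (Set.range v)) K :=
    Algebra.FormallyEtale.of_isSeparable _ K
  have e3 : Algebra.FormallyEtale (Algebra.adjoin k (Set.range v)) K :=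
    .comp _ (IntermediateField.adjoin k (Set.range v)) _
  let ψ := hb.aevalEquiv
  have hψX : ∀ j, ψ (MvPolynomial.X j) = ⟨v j, Algebra.subset_adjoin ⟨j, rfl⟩⟩ := by
    intro j
    apply Subtype.ext
    exact (hb.algebraMap_aevalEquiv _).trans (by simp)
  -- the derivation on the polynomial subalgebra
  let δ : Derivation k (Algebra.adjoin k (Set.range v)) (Algebra.adjoin k (Set.range v)) :=
    Derivation.mk' (ψ.toLinearMap ∘ₗ (MvPolynomial.pderiv i).toLinearMap ∘ₗ ψ.symm.toLinearMap)
      (by
        intro a b
        have := (MvPolynomial.pderiv (R := k) i).leibniz (ψ.symm a) (ψ.symm b)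
        simp only [LinearMap.comp_apply, AlgEquiv.toLinearMap_apply, Derivation.coeFn_coe,
          map_mul, this, smul_eq_mul, map_add, AlgEquiv.apply_symm_apply])
  have hδ : ∀ j, δ ⟨v j, Algebra.subset_adjoin ⟨j, rfl⟩⟩ = ψ (MvPolynomial.pderiv i (MvPolynomial.X j)) := by
    intro j
    rw [← hψX]
    simp [δ]
  let ℓ : Ω[Algebra.adjoin k (Set.range v)⁄k] →ₗ[Algebra.adjoin k (Set.range v)] K :=
    (Algebra.linearMap (Algebra.adjoin k (Set.range v)) K) ∘ₗ δ.liftKaehlerDifferential
  let Λ : Ω[K⁄k] →ₗ[K] K :=
    (LinearMap.liftBaseChange K ℓ) ∘ₗ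
      (KaehlerDifferential.tensorKaehlerEquivOfFormallyEtale k
        (Algebra.adjoin k (Set.range v)) K).symm.toLinearMap
  have hΛ : ∀ j, Λ.compDer (KaehlerDifferential.D k K) (v j) =
      algebraMap (Algebra.adjoin k (Set.range v)) K (ψ (MvPolynomial.pderiv i (MvPolynomial.X j))) := by
    intro j
    have h1 : v j = algebraMap (Algebra.adjoin k (Set.range v)) K
        ⟨v j, Algebra.subset_adjoin ⟨j, rfl⟩⟩ := rfl
    change Λ (KaehlerDifferential.D k K (v j)) = _
    simp only [Λ, LinearMap.comp_apply, LinearEquiv.coe_coe]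
    conv_lhs => rw [h1]
    rw [KaehlerDifferential.tensorKaehlerEquivOfFormallyEtale_symm_D_algebraMap]
    rw [LinearMap.liftBaseChange_tmul, one_smul]
    simp only [ℓ, LinearMap.comp_apply, Algebra.linearMap_apply,
      Derivation.liftKaehlerDifferential_comp_D]
    rw [hδ]
  refine ⟨Λ.compDer (KaehlerDifferential.D k K), ?_, fun j hj => ?_⟩
  · rw [hΛ, MvPolynomial.pderiv_X_self]
    simp
  · rw [hΛ, MvPolynomial.pderiv_X_of_ne hj]
    simp

variable {K : Type*} [Field K] {p : ℕ} [hp : Fact p.Prime] [hK : CharP K p]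

/-- Any derivation is `p`-th power linear. -/
noncomputable def toDer {R : Type*} [CommRing R] [Algebra R K] (D : Derivation R K K) : Der K p :=
  Derivation.mk' 
    { toFun := D
      map_add' := map_add D
      map_smul' := by
        intro c u
        have hc : D (c : K) = 0 := by
          obtain ⟨y, hy⟩ := mem_PP.1 c.2
          rw [← hy, Derivation.leibniz_pow, nsmul_eq_mul, CharP.cast_eq_zero K p, zero_mul]
        change D ((c : K) * u) = (c : K) * D u
        rw [Derivation.leibniz, hc]
        simp }
    (by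
      intro a b
      exact D.leibniz a b)

lemma toDer_apply {R : Type*} [CommRing R] [Algebra R K] (D : Derivation R K K) (u : K) :
    toDer (p := p) D u = D u := rfl

/-- A finitely generated field over an algebraically closed subfield of transcendence degree
at least two has two independent elements. -/
theorem exists_rank (k : Subfield K) [IsAlgClosed k]
    (hfg : ∃ s : Finset K, Subfield.closure ((k : Set K) ∪ (s : Set K)) = ⊤)
    (h2 : 2 ≤ Algebra.trdeg k K) :
    ∃ x y : K, x ≠ 0 ∧ y ≠ 0 ∧ ¬ Perp (cl p x) (cl p y) := by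
  obtain ⟨s, hs⟩ := hfg
  have hfgtop : (⊤ : IntermediateField k K).FG := by
    refine ⟨s, ?_⟩
    apply IntermediateField.toSubfield_injective
    rw [IntermediateField.adjoin_toSubfield, IntermediateField.top_toSubfield, ← hs]
    congr 2
    ext x
    constructor
    · rintro ⟨y, rfl⟩
      exact y.2
    · intro hx
      exact ⟨⟨x, hx⟩, rfl⟩
  have hess : Algebra.EssFiniteType k K := IntermediateField.fg_top_iff.1 hfgtop
  obtain ⟨t, ht, hsep⟩ := exists_isTranscendenceBasis_and_isSeparable_of_perfectField k K
  have hcard : 2 ≤ Cardinal.mk t := by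
    rw [ht.cardinalMk_eq_trdeg]
    exact h2
  obtain ⟨x, y, hxy⟩ := Cardinal.two_le_iff.1 hcard
  have hsep' : Algebra.IsSeparable (IntermediateField.adjoin k (Set.range ((↑) : t → K))) K := by
    convert! hsep <;> simp
  obtain ⟨D₁, h11, h12⟩ := exists_derivation_of_basis ht.1 x
  obtain ⟨D₂, h21, h22⟩ := exists_derivation_of_basis ht.1 y
  have h12' := h12 y hxy.symm
  have h22' := h22 x hxy
  have hx0 : (x : K) ≠ 0 := by
    intro h
    rw [h, map_zero] at h11
    exact zero_ne_one h11
  have hy0 : (y : K) ≠ 0 := by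
    intro h
    rw [h, map_zero] at h21
    exact zero_ne_one h21
  refine ⟨x, y, hx0, hy0, fun h => ?_⟩
  have := h (toDer D₁) (toDer D₂)
  rw [dl_cl _ hx0, dl_cl _ hy0, dl_cl _ hx0, dl_cl _ hy0, toDer_apply, toDer_apply, toDer_apply,
    toDer_apply, h11, h21, h12', h22', zero_div, zero_mul] at this
  have h3 : (1 : K) / x * (1 / y) ≠ 0 :=
    mul_ne_zero (div_ne_zero one_ne_zero hx0) (div_ne_zero one_ne_zero hy0)
  exact h3 this

end Deriv

end Crest.Agent.S0010Lib
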