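import Crest.Agent.S0010Lib.FTPG

set_option autoImplicit false
set_option linter.unusedSectionVars false
set_option linter.style.haveILetI false
set_option linter.unusedVariables false

open Polynomial IntermediateField Crest.NumberTheoryR.MilnorK
open scoped TensorProduct

namespace Crest.Agent.S0010Lib

section Spread

variable {K L : Type*} [Field K] [Field L] {p : ℕ} [hp : Fact p.Prime] [hK : CharP K p]
  [hL : CharP L p]

/-- The image of a Steinberg pair is perpendicular. -/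
def StP (Θ : KOne K p ≃ₗ[ZMod p] KOne L p) : Prop :=
  ∀ f : K, f ≠ 0 → f ≠ 1 → Perp (Θ (cl p f)) (Θ (cl p (1 - f)))

variable {Θ : KOne K p ≃ₗ[ZMod p] KOne L p}

lemma line_perp (hΘ : StP Θ) {u c : K} (hu : u ∉ PP K p) (hc' : c ∈ PP K p) (hc0 : c ≠ 0) :
    Perp (Θ (cl p u)) (Θ (cl p (u + c))) := by
  have hu0 : u ≠ 0 := fun h => hu (by rw [h]; exact zero_mem _)
  have hb : -c⁻¹ ∈ PP K p := neg_mem (inv_mem hc')
  have hb0 : -c⁻¹ ≠ 0 := neg_ne_zero.2 (inv_ne_zero hc0)
  have hf0 : -c⁻¹ * u ≠ 0 := mul_ne_zero hb0 hu0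
  have hf1 : -c⁻¹ * u ≠ 1 := by
    intro h
    apply hu
    have : u = -c := by
      field_simp at h
      linear_combination -h
    rw [this]
    exact neg_mem hc'
  have hn := add_PP_ne_zero hu hc'
  have e1 : cl p (-c⁻¹ * u) = cl p u := cl_PP_mul hb hb0 hu0
  have e2 : 1 - -c⁻¹ * u = c⁻¹ * (u + c) := by
    field_simp
    ring
  have e3 : cl p (1 - -c⁻¹ * u) = cl p (u + c) := by
    rw [e2, cl_PP_mul (inv_mem hc') (inv_ne_zero hc0) hn]
  have := hΘ _ hf0 hf1
  rwa [e1, e3] at this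

lemma perp_map_zero {a : KOne L p} : Perp a (Θ 0) := by
  rw [map_zero]
  exact perp_zero_right a

/-- Horner: all of `E(x)` goes to the perpendicular of `Θ [x]`. -/
theorem spread (hΘ : StP Θ) {x : K} (hx : x ∉ PP K p) (P : (PP K p)[X]) :
    aeval x P ≠ 0 → Perp (Θ (cl p x)) (Θ (cl p (aeval x P))) := by
  have hx0 : x ≠ 0 := fun h => hx (by rw [h]; exact zero_mem _)
  induction P using Polynomial.recOnHorner with
  | M0 => simp
  | MC q a _ ha ih =>
    intro hne
    rw [map_add, aeval_C] at hne ⊢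
    rw [algebraMap_PP] at hne ⊢
    by_cases hu : aeval x q ∈ PP K p
    · rw [cl_PP (add_mem hu a.2)]
      exact perp_map_zero
    · have hu0 : aeval x q ≠ 0 := fun h => hu (by rw [h]; exact zero_mem _)
      have h1 := ih hu0
      have ha0 : (a : K) ≠ 0 := fun h => ha (Subtype.ext h)
      have h2 := line_perp hΘ hu a.2 ha0
      refine Perp.trans ?_ h1 h2
      intro h
      have h3 : cl p (aeval x q) = 0 := Θ.injective (by rw [h, map_zero])
      exact hu ((cl_eq_zero_iff hu0).1 h3)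
  | MX q _ ih =>
    intro hne
    rw [map_mul, aeval_X] at hne ⊢
    have hu0 : aeval x q ≠ 0 := left_ne_zero_of_mul hne
    rw [cl_mul hu0 hx0, map_add]
    exact (ih hu0).add_right (perp_self _)

theorem perp_map (hΘ : StP Θ) {a b : KOne K p} (h : Perp a b) : Perp (Θ a) (Θ b) := by
  obtain ⟨x, hx0, rfl⟩ := exists_cl a
  obtain ⟨g, hg0, rfl⟩ := exists_cl b
  by_cases hx : x ∈ PP K p
  · rw [cl_PP hx, map_zero]
    exact perp_zero_left _
  · obtain ⟨P, rfl⟩ := mem_Ea.1 ((perp_cl_iff hx hx0 hg0).1 h)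
    exact spread hΘ hx P hg0

theorem perpPres_of_stp (h₁ : StP Θ) (h₂ : StP Θ.symm) : PerpPres Θ := by
  intro a b
  refine ⟨perp_map h₁, fun h => ?_⟩
  have := perp_map h₂ h
  rwa [Θ.symm_apply_apply, Θ.symm_apply_apply] at this

theorem stp_of_compat (h : IsCompatible Θ) : StP Θ := by
  intro f hf hf1
  have hf1' : 1 - f ≠ 0 := sub_ne_zero.2 (Ne.symm hf1)
  apply perp_of_tmul_mem
  have hmem : (cl p f) ⊗ₜ[ZMod p] (cl p (1 - f)) ∈ steinberg K p := by
    refine Submodule.subset_span ⟨f, hf, hf1', ?_⟩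
    rw [cls_eq, cls_eq]
    simp
  unfold IsCompatible at h
  rw [← h]
  refine Submodule.mem_map.2 ⟨_, hmem, ?_⟩
  rw [TensorProduct.map_tmul]
  rfl

theorem stp_symm_of_compat (h : IsCompatible Θ) : StP Θ.symm := by
  intro f hf hf1
  have hf1' : 1 - f ≠ 0 := sub_ne_zero.2 (Ne.symm hf1)
  apply perp_of_tmul_mem
  have hmem : (cl p f) ⊗ₜ[ZMod p] (cl p (1 - f)) ∈ steinberg L p := by
    refine Submodule.subset_span ⟨f, hf, hf1', ?_⟩
    rw [cls_eq, cls_eq]
    simp
  unfold IsCompatible at h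
  rw [← h] at hmem
  obtain ⟨t, ht, hte⟩ := Submodule.mem_map.1 hmem
  have hcomp : (TensorProduct.map Θ.symm.toLinearMap Θ.symm.toLinearMap)
      (TensorProduct.map Θ.toLinearMap Θ.toLinearMap t) = t := by
    rw [← LinearMap.comp_apply, ← TensorProduct.map_comp]
    have h1 : Θ.symm.toLinearMap ∘ₗ Θ.toLinearMap = LinearMap.id := by
      ext x
      simp
    rw [h1, TensorProduct.map_id]
    rfl
  rw [hte] at hcomp
  simp only [TensorProduct.map_tmul] at hcomp
  have : (Θ.symm (cl p f)) ⊗ₜ[ZMod p] (Θ.symm (cl p (1 - f))) = t := hcomp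
  rw [this]
  exact ht

end Spread

end Crest.Agent.S0010Lib
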